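import Vale.Agent.Lib.P143.Defs

/-!
# P143: blocks of a graph, inside and outside parts of a subgraph
-/

open SimpleGraph

namespace Vale.Agent.P143

variable {V V₀ : Type*}

/-- `j` embeds the graph `G₀` as a block of `G`, and `r` is a retraction collapsing every edge of
`G` that is not an edge of the block. -/
structure Block (G : SimpleGraph V) (G₀ : SimpleGraph V₀) (j : V₀ → V) (r : V → V₀) : Prop where
  rj : ∀ g, r (j g) = g
  adj_iff : ∀ g g', G.Adj (j g) (j g') ↔ G₀.Adj g g'
  edge : ∀ u v, G.Adj u v → r u = r v ∨ (j (r u) = u ∧ j (r v) = v)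

/-- The part of `T` outside the block. -/
def outB (j : V₀ → V) (r : V → V₀) (T : SimpleGraph V) : SimpleGraph V where
  Adj u v := T.Adj u v ∧ ¬ (j (r u) = u ∧ j (r v) = v)
  symm := ⟨fun _ _ h => ⟨h.1.symm, fun h' => h.2 ⟨h'.2, h'.1⟩⟩⟩
  loopless := ⟨fun _ h => h.1.ne rfl⟩

/-- The image of a graph on the block. -/
def pushB (j : V₀ → V) (T₀ : SimpleGraph V₀) : SimpleGraph V where
  Adj u v := u ≠ v ∧ ∃ g g', T₀.Adj g g' ∧ j g = u ∧ j g' = v
  symm := ⟨fun _ _ h => ⟨h.1.symm, by
    obtain ⟨g, g', h1, h2, h3⟩ := h.2
    exact ⟨g', g, h1.symm, h3, h2⟩⟩⟩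
  loopless := ⟨fun _ h => h.1 rfl⟩

/-- The part of `T` inside the block, pulled back. -/
def inB (j : V₀ → V) (T : SimpleGraph V) : SimpleGraph V₀ where
  Adj g g' := T.Adj (j g) (j g')
  symm := ⟨fun _ _ h => h.symm⟩
  loopless := ⟨fun _ h => h.ne rfl⟩

namespace Block

variable {G : SimpleGraph V} {G₀ : SimpleGraph V₀} {j : V₀ → V} {r : V → V₀}
  (b : Block G G₀ j r)
include b

theorem inj : Function.Injective j := fun g g' h => by
  have := congrArg r h
  rwa [b.rj, b.rj] at this

/-- the graph homomorphism `G₀ → G` -/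
def hom : G₀ →g G := ⟨j, fun {g g'} h => (b.adj_iff g g').mpr h⟩

theorem pushB_adj {T₀ : SimpleGraph V₀} {g g' : V₀} : (pushB j T₀).Adj (j g) (j g') ↔ T₀.Adj g g' := by
  constructor
  · rintro ⟨_, a, a', h1, h2, h3⟩
    rw [b.inj h2, b.inj h3] at h1
    exact h1
  · intro h
    exact ⟨fun hh => h.ne (b.inj hh), g, g', h, rfl, rfl⟩

/-- `T` is glued from its inside and outside parts. -/
theorem glue_eq (T : SimpleGraph V) : pushB j (inB j T) ⊔ outB j r T = T := by
  ext u v
  simp only [sup_adj]
  constructor
  · rintro (⟨_, g, g', h1, rfl, rfl⟩ | h)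
    · exact h1
    · exact h.1
  · intro h
    by_cases hb : j (r u) = u ∧ j (r v) = v
    · left
      refine ⟨h.ne, r u, r v, ?_, hb.1, hb.2⟩
      show T.Adj (j (r u)) (j (r v))
      rw [hb.1, hb.2]; exact h
    · exact Or.inr ⟨h, hb⟩

theorem inB_glue (T₀ : SimpleGraph V₀) (R : SimpleGraph V) :
    inB j (pushB j T₀ ⊔ outB j r R) = T₀ := by
  ext g g'
  show (pushB j T₀ ⊔ outB j r R).Adj (j g) (j g') ↔ _
  simp only [sup_adj, b.pushB_adj]
  constructor
  · rintro (h | h)
    · exact h
    · exact absurd ⟨by rw [b.rj], by rw [b.rj]⟩ h.2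
  · exact Or.inl

theorem outB_glue (T₀ : SimpleGraph V₀) (R : SimpleGraph V) :
    outB j r (pushB j T₀ ⊔ outB j r R) = outB j r R := by
  ext u v
  constructor
  · rintro ⟨h1 | h1, h2⟩
    · obtain ⟨_, g, g', _, rfl, rfl⟩ := h1
      exact absurd ⟨by rw [b.rj], by rw [b.rj]⟩ h2
    · exact h1
  · intro h
    exact ⟨Or.inr h, h.2⟩

/-- Reachability in `T ≤ G` projects to reachability in the inside part. -/
theorem reachable_inB {T : SimpleGraph V} (hT : T ≤ G) {u v : V} (h : T.Reachable u v) :
    (inB j T).Reachable (r u) (r v) := by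
  obtain ⟨p⟩ := h
  induction p with
  | nil => exact Reachable.refl _
  | @cons x y z hadj _ ih =>
    refine Reachable.trans ?_ ih
    rcases b.edge _ _ (hT hadj) with h | ⟨h1, h2⟩
    · rw [h]
    · apply Adj.reachable
      show T.Adj (j (r x)) (j (r y))
      rw [h1, h2]; exact hadj

theorem reachable_pushB {T₀ : SimpleGraph V₀} {g g' : V₀} (h : T₀.Reachable g g') :
    (pushB j T₀).Reachable (j g) (j g') := by
  obtain ⟨p⟩ := h
  induction p with
  | nil => exact Reachable.refl _
  | cons hadj _ ih => exact (Adj.reachable (b.pushB_adj.mpr hadj)).trans ih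

theorem inB_spanning {H : G.Subgraph} {T : SimpleGraph V} (hT : IsSpanningTree H T) :
    IsSpanningTree (H.comap b.hom) (inB j T) := by
  refine ⟨?_, ?_, ?_⟩
  · intro g g' h
    have h1 : H.Adj (j g) (j g') := hT.1 h
    exact ⟨(b.adj_iff g g').mp h1.adj_sub, h1⟩
  · let f : inB j T →g T := ⟨j, fun {a a'} h => h⟩
    exact hT.2.1.comap f b.inj
  · intro g hg g' hg'
    have := b.reachable_inB (hT.1.trans H.spanningCoe_le) (hT.2.2 (j g) hg (j g') hg')
    rwa [b.rj, b.rj] at this

theorem glue_spanning {H : G.Subgraph} {T : SimpleGraph V} {T₀ : SimpleGraph V₀}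
    (hT : IsSpanningTree H T) (hT₀ : IsSpanningTree (H.comap b.hom) T₀) :
    IsSpanningTree H (pushB j T₀ ⊔ outB j r T) := by
  have hTG : T ≤ G := hT.1.trans H.spanningCoe_le
  have hpush : ∀ g g', T₀.Adj g g' → H.Adj (j g) (j g') := fun g g' h => (hT₀.1 h).2
  have hFG : pushB j T₀ ⊔ outB j r T ≤ G := by
    apply sup_le
    · rintro u v ⟨_, g, g', h, rfl, rfl⟩
      exact (hpush g g' h).adj_sub
    · intro u v h
      exact hTG h.1
  refine ⟨?_, ?_, ?_⟩
  · apply sup_le
    · rintro u v ⟨_, g, g', h, rfl, rfl⟩
      exact hpush g g' h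
    · intro u v h
      exact hT.1 h.1
  · -- acyclic: every edge is a bridge
    rw [isAcyclic_iff_forall_adj_isBridge]
    intro u v huv
    rw [isBridge_iff]
    intro hreach
    rcases huv with ⟨_, g, g', hgg, rfl, rfl⟩ | hout
    · -- a block edge: project to the block
      have hbr : ¬ (T₀.deleteEdges {s(g, g')}).Reachable g g' :=
        isBridge_iff.mp (isAcyclic_iff_forall_adj_isBridge.mp hT₀.2.1 hgg)
      apply hbr
      have key : ∀ x y, ((pushB j T₀ ⊔ outB j r T).deleteEdges {s(j g, j g')}).Reachable x y →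
          (T₀.deleteEdges {s(g, g')}).Reachable (r x) (r y) := by
        intro x y hxy
        obtain ⟨p⟩ := hxy
        induction p with
        | nil => exact Reachable.refl _
        | @cons x y z hadj _ ih =>
          refine Reachable.trans ?_ ih
          rw [deleteEdges_adj] at hadj
          obtain ⟨hadj, hne⟩ := hadj
          rcases hadj with ⟨_, a, a', haa, rfl, rfl⟩ | ho
          · rw [b.rj, b.rj]
            apply Adj.reachable
            rw [deleteEdges_adj]
            refine ⟨haa, ?_⟩
            intro he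
            apply hne
            simp only [Set.mem_singleton_iff] at he ⊢
            have := congrArg (Sym2.map j) he
            simpa using this
          · rcases b.edge _ _ (hTG ho.1) with h | h
            · rw [h]
            · exact absurd h ho.2
      have := key _ _ hreach
      rwa [b.rj, b.rj] at this
    · -- an outside edge: replace block edges by paths of `T` in the block
      have hbr : ¬ (T.deleteEdges {s(u, v)}).Reachable u v :=
        isBridge_iff.mp (isAcyclic_iff_forall_adj_isBridge.mp hT.2.1 hout.1)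
      apply hbr
      have hin : ∀ a a', (inB j T).Reachable a a' →
          (T.deleteEdges {s(u, v)}).Reachable (j a) (j a') := by
        intro a a' haa
        obtain ⟨p⟩ := haa
        induction p with
        | nil => exact Reachable.refl _
        | @cons x y z hadj _ ih =>
          refine Reachable.trans ?_ ih
          apply Adj.reachable
          rw [deleteEdges_adj]
          refine ⟨hadj, ?_⟩
          intro he
          simp only [Set.mem_singleton_iff] at he
          apply hout.2
          rcases Sym2.eq_iff.mp he with ⟨rfl, rfl⟩ | ⟨rfl, rfl⟩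
          · exact ⟨by rw [b.rj], by rw [b.rj]⟩
          · exact ⟨by rw [b.rj], by rw [b.rj]⟩
      have key : ∀ x y, ((pushB j T₀ ⊔ outB j r T).deleteEdges {s(u, v)}).Reachable x y →
          (T.deleteEdges {s(u, v)}).Reachable x y := by
        intro x y hxy
        obtain ⟨p⟩ := hxy
        induction p with
        | nil => exact Reachable.refl _
        | @cons x y z hadj _ ih =>
          refine Reachable.trans ?_ ih
          rw [deleteEdges_adj] at hadj
          obtain ⟨hadj, hne⟩ := hadj
          rcases hadj with ⟨_, a, a', haa, rfl, rfl⟩ | ho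
          · apply hin
            have hH := hpush a a' haa
            exact (b.inB_spanning hT).2.2 a (H.edge_vert hH) a' (H.edge_vert hH.symm)
          · apply Adj.reachable
            rw [deleteEdges_adj]
            exact ⟨ho.1, hne⟩
      exact key _ _ hreach
  · intro u hu v hv
    obtain ⟨p⟩ := hT.2.2 u hu v hv
    induction p with
    | nil => exact Reachable.refl _
    | @cons x y z hadj _ ih =>
      have hy : y ∈ H.verts := H.edge_vert (hT.1 hadj : H.Adj x y).symm
      refine Reachable.trans ?_ (ih hy hv)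
      by_cases hb : j (r x) = x ∧ j (r y) = y
      · have hx' : r x ∈ (H.comap b.hom).verts := by
          show j (r x) ∈ H.verts
          rw [hb.1]; exact hu
        have hy' : r y ∈ (H.comap b.hom).verts := by
          show j (r y) ∈ H.verts
          rw [hb.2]; exact hy
        have := b.reachable_pushB (hT₀.2.2 _ hx' _ hy')
        rw [hb.1, hb.2] at this
        exact this.mono le_sup_left
      · exact Adj.reachable (Or.inr ⟨hadj, hb⟩)


end Block

end Vale.Agent.P143
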