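import Vale.Agent.Lib.P143.Block

/-!
# P143: the uniform spanning tree factorises over blocks
-/

open SimpleGraph

namespace Vale.Agent.P143

variable {V V₀ : Type*}

/-- Probability that the uniform spanning tree of `H` satisfies `p`. -/
noncomputable def ustP {G : SimpleGraph V} (H : G.Subgraph) (p : SimpleGraph V → Prop) : ℝ :=
  ({T | IsSpanningTree H T ∧ p T}.ncard : ℝ) / ({T | IsSpanningTree H T}.ncard : ℝ)

theorem ustProb_eq_ustP {G : SimpleGraph V} (H : G.Subgraph) (E : Set (Set (Sym2 V))) :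
    ustProb H E = ustP H (fun T => T.edgeSet ∈ E) := rfl

theorem ustP_congr {G : SimpleGraph V} (H : G.Subgraph) {p q : SimpleGraph V → Prop}
    (h : ∀ T, IsSpanningTree H T → (p T ↔ q T)) : ustP H p = ustP H q := by
  unfold ustP
  have : {T | IsSpanningTree H T ∧ p T} = {T | IsSpanningTree H T ∧ q T} := by
    ext T
    simp only [Set.mem_ofPred_eq]
    constructor
    · rintro ⟨h1, h2⟩; exact ⟨h1, (h T h1).mp h2⟩
    · rintro ⟨h1, h2⟩; exact ⟨h1, (h T h1).mpr h2⟩
  rw [this]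

/-- `Q` depends only on the part of the graph outside the block. -/
def OutDep (j : V₀ → V) (r : V → V₀) (Q : SimpleGraph V → Prop) : Prop :=
  ∀ T T', outB j r T = outB j r T' → (Q T ↔ Q T')

theorem outB_idem (j : V₀ → V) (r : V → V₀) (T : SimpleGraph V) :
    outB j r (outB j r T) = outB j r T := by
  ext u v
  constructor
  · intro h; exact h.1
  · intro h; exact ⟨h, h.2⟩

namespace Block

variable {G : SimpleGraph V} {G₀ : SimpleGraph V₀} {j : V₀ → V} {r : V → V₀}
  (b : Block G G₀ j r)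
include b

theorem card_split (H : G.Subgraph) (A : SimpleGraph V₀ → Prop) (Q : SimpleGraph V → Prop)
    (hQ : OutDep j r Q) :
    {T | IsSpanningTree H T ∧ A (inB j T) ∧ Q T}.ncard =
      {T₀ | IsSpanningTree (H.comap b.hom) T₀ ∧ A T₀}.ncard *
        {R | R ∈ outB j r '' {T | IsSpanningTree H T} ∧ Q R}.ncard := by
  rw [← Set.ncard_prod]
  have hinj : Set.InjOn (fun T => (inB j T, outB j r T))
      {T | IsSpanningTree H T ∧ A (inB j T) ∧ Q T} := by
    intro T _ T' _ h
    simp only [Prod.mk.injEq] at h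
    rw [← b.glue_eq T, ← b.glue_eq T', h.1, h.2]
  rw [← hinj.ncard_image]
  congr 1
  ext ⟨T₀, R⟩
  simp only [Set.mem_image, Set.mem_ofPred_eq, Prod.mk.injEq, Set.mem_prod]
  constructor
  · rintro ⟨T, ⟨hT, hA, hq⟩, rfl, rfl⟩
    exact ⟨⟨b.inB_spanning hT, hA⟩, ⟨T, hT, rfl⟩, (hQ _ _ (outB_idem j r T)).mpr hq⟩
  · rintro ⟨⟨hT₀, hA⟩, ⟨T', hT', rfl⟩, hq⟩
    refine ⟨pushB j T₀ ⊔ outB j r T', ⟨b.glue_spanning hT' hT₀, ?_, ?_⟩, b.inB_glue _ _,
      b.outB_glue _ _⟩
    · rw [b.inB_glue]; exact hA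
    · refine (hQ _ _ ?_).mpr hq
      rw [b.outB_glue, outB_idem]

theorem ustP_split (H : G.Subgraph) (A : SimpleGraph V₀ → Prop) (Q : SimpleGraph V → Prop)
    (hQ : OutDep j r Q) :
    ustP H (fun T => A (inB j T) ∧ Q T) = ustP (H.comap b.hom) A * ustP H Q := by
  have h1 := b.card_split H A Q hQ
  have h2 := b.card_split H (fun _ => True) Q hQ
  have h3 := b.card_split H (fun _ => True) (fun _ => True) (fun _ _ _ => Iff.rfl)
  simp only [true_and, and_true] at h2 h3
  unfold ustP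
  rw [h1, h2, h3]
  set n₀ := {T₀ | IsSpanningTree (H.comap b.hom) T₀}.ncard
  set a := {T₀ | IsSpanningTree (H.comap b.hom) T₀ ∧ A T₀}.ncard
  set o := {R | R ∈ outB j r '' {T | IsSpanningTree H T}}.ncard
  set q := {R | R ∈ outB j r '' {T | IsSpanningTree H T} ∧ Q R}.ncard
  push_cast
  by_cases hn : (n₀ : ℝ) = 0
  · simp [hn]
  by_cases ho : (o : ℝ) = 0
  · simp [ho]
  field_simp

end Block

/-- The blocks `(j, r)` and `j'` share no edge. -/
def EdgeDisj (j : V₀ → V) (r : V → V₀) {V₁ : Type*} (j' : V₁ → V) : Prop :=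
  ∀ g g', g ≠ g' → ¬ (j (r (j' g)) = j' g ∧ j (r (j' g')) = j' g')

theorem inB_outB_of_edgeDisj {j : V₀ → V} {r : V → V₀} {V₁ : Type*} {j' : V₁ → V}
    (h : EdgeDisj j r j') (T : SimpleGraph V) : inB j' (outB j r T) = inB j' T := by
  ext g g'
  constructor
  · intro hh; exact hh.1
  · intro hh
    refine ⟨hh, h g g' ?_⟩
    rintro rfl
    exact hh.ne rfl

theorem outDep_inB {j : V₀ → V} {r : V → V₀} {V₁ : Type*} {j' : V₁ → V}
    (h : EdgeDisj j r j') (A : SimpleGraph V₁ → Prop) : OutDep j r (fun T => A (inB j' T)) := by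
  intro T T' hTT
  have : inB j' T = inB j' T' := by
    rw [← inB_outB_of_edgeDisj h T, ← inB_outB_of_edgeDisj h T', hTT]
  simp only [this]

theorem ustP_peel {β : Type*} {G : SimpleGraph V} {G₀ : SimpleGraph V₀} (j : β → V₀ → V)
    (r : β → V → V₀) (hb : ∀ c, Block G G₀ (j c) (r c)) (H : G.Subgraph) (J : Finset β)
    (hJ : ∀ c ∈ J, ∀ c' ∈ J, c ≠ c' → EdgeDisj (j c) (r c) (j c'))
    (A : β → SimpleGraph V₀ → Prop) (Q : SimpleGraph V → Prop)
    (hQ : ∀ c ∈ J, OutDep (j c) (r c) Q) :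
    ustP H (fun T => (∀ c ∈ J, A c (inB (j c) T)) ∧ Q T) =
      (∏ c ∈ J, ustP (H.comap (hb c).hom) (A c)) * ustP H Q := by
  classical
  induction J using Finset.induction_on with
  | empty => simp
  | insert c J' hc ih =>
    have ih' := ih (fun c1 h1 c2 h2 => hJ c1 (Finset.mem_insert_of_mem h1) c2
      (Finset.mem_insert_of_mem h2)) (fun c1 h1 => hQ c1 (Finset.mem_insert_of_mem h1))
    have hdep : OutDep (j c) (r c) (fun T => (∀ c' ∈ J', A c' (inB (j c') T)) ∧ Q T) := by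
      intro T T' hTT
      have h1 := hQ c (Finset.mem_insert_self _ _) T T' hTT
      have h2 : ∀ c' ∈ J', (A c' (inB (j c') T) ↔ A c' (inB (j c') T')) := by
        intro c' hc'
        have hne : c ≠ c' := fun h => hc (h ▸ hc')
        exact outDep_inB (hJ c (Finset.mem_insert_self _ _) c' (Finset.mem_insert_of_mem hc') hne)
          (A c') T T' hTT
      constructor
      · rintro ⟨a1, a2⟩
        exact ⟨fun c' hc' => (h2 c' hc').mp (a1 c' hc'), h1.mp a2⟩
      · rintro ⟨a1, a2⟩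
        exact ⟨fun c' hc' => (h2 c' hc').mpr (a1 c' hc'), h1.mpr a2⟩
    have := (hb c).ustP_split H (A c) _ hdep
    rw [Finset.prod_insert hc, mul_assoc, ← ih', ← this]
    apply ustP_congr
    intro T _
    simp only [Finset.mem_insert, forall_eq_or_imp]
    tauto

end Vale.Agent.P143
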