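import Vale.Agent.Lib.P143.BlockCount

/-!
# P143: an exhaustion of a graph restricts to an exhaustion of each block
-/

open SimpleGraph

namespace Vale.Agent.P143

variable {V V₀ : Type*}

theorem connected_of_reachable {G : SimpleGraph V} (H : G.Subgraph) (hne : H.verts.Nonempty)
    (h : ∀ u ∈ H.verts, ∀ v ∈ H.verts, H.spanningCoe.Reachable u v) : H.Connected := by
  rw [Subgraph.connected_iff]
  refine ⟨?_, hne⟩
  rw [Subgraph.preconnected_iff]
  have key : ∀ u v (p : H.spanningCoe.Walk u v) (hu : u ∈ H.verts) (hv : v ∈ H.verts),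
      H.coe.Reachable ⟨u, hu⟩ ⟨v, hv⟩ := by
    intro u v p
    induction p with
    | nil => intro hu hv; exact Reachable.refl _
    | @cons x y z hadj _ ih =>
      intro hu hv
      have hxy : H.Adj x y := hadj
      have hy : y ∈ H.verts := H.edge_vert hxy.symm
      refine Reachable.trans ?_ (ih hy hv)
      exact Adj.reachable (show H.coe.Adj ⟨x, hu⟩ ⟨y, hy⟩ from hxy)
  rintro ⟨u, hu⟩ ⟨v, hv⟩
  obtain ⟨p⟩ := h u hu v hv
  exact key u v p hu hv

theorem reachable_of_connected {G : SimpleGraph V} {H : G.Subgraph} (hc : H.Connected)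
    {u v : V} (hu : u ∈ H.verts) (hv : v ∈ H.verts) : H.spanningCoe.Reachable u v := by
  have := hc.coe.preconnected ⟨u, hu⟩ ⟨v, hv⟩
  let f : H.coe →g H.spanningCoe := ⟨Subtype.val, fun {a b} hab => hab⟩
  exact this.map f

namespace Block

variable {G : SimpleGraph V} {G₀ : SimpleGraph V₀} {j : V₀ → V} {r : V → V₀}
  (b : Block G G₀ j r)
include b

theorem comap_connected {H : G.Subgraph} (hc : H.Connected) {g₀ : V₀} (hg₀ : j g₀ ∈ H.verts) :
    (H.comap b.hom).Connected := by
  apply connected_of_reachable _ ⟨g₀, hg₀⟩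
  intro g hg g' hg'
  have hg1 : j g ∈ H.verts := hg
  have hg2 : j g' ∈ H.verts := hg'
  have h1 := b.reachable_inB H.spanningCoe_le (reachable_of_connected hc hg1 hg2)
  rw [b.rj, b.rj] at h1
  refine h1.mono ?_
  intro a a' haa
  have h2 : H.Adj (j a) (j a') := haa
  exact ⟨(b.adj_iff a a').mp h2.adj_sub, h2⟩

theorem exhaustion_comap [Nonempty V₀] {H : ℕ → G.Subgraph} (hH : IsExhaustion G H) :
    ∃ n₀, IsExhaustion G₀ (fun n => (H (n + n₀)).comap b.hom) := by
  obtain ⟨g₀⟩ := ‹Nonempty V₀›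
  have hv : ∀ v : V, ∃ n, v ∈ (H n).verts := by
    intro v
    have : v ∈ (⨆ n, H n).verts := by rw [hH.union]; trivial
    rw [Subgraph.verts_iSup] at this
    exact Set.mem_iUnion.mp this
  obtain ⟨n₀, hn₀⟩ := hv (j g₀)
  refine ⟨n₀, ?_, ?_, ?_, ?_⟩
  · intro n
    exact (hH.finite _).preimage b.inj.injOn
  · intro n
    exact b.comap_connected (hH.connected _) ((hH.mono (Nat.le_add_left n₀ n)).1 hn₀)
  · intro m n hmn
    exact Subgraph.comap_monotone _ (hH.mono (Nat.add_le_add_right hmn n₀))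
  · apply le_antisymm le_top
    constructor
    · intro g _
      obtain ⟨n, hn⟩ := hv (j g)
      rw [Subgraph.verts_iSup]
      exact Set.mem_iUnion.mpr ⟨n, (hH.mono (Nat.le_add_right n n₀)).1 hn⟩
    · intro g g' hgg
      have h1 : G.Adj (j g) (j g') := (b.adj_iff g g').mpr hgg
      have h2 : (⨆ n, H n).Adj (j g) (j g') := by rw [hH.union]; exact h1
      rw [Subgraph.iSup_adj] at h2 ⊢
      obtain ⟨n, hn⟩ := h2
      exact ⟨n, hgg, (hH.mono (Nat.le_add_right n n₀)).2 hn⟩

end Block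

end Vale.Agent.P143
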