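import Mathlib

/-!
# P143: first letters in free products
-/

open Monoid

namespace Vale.Agent.P143

section
open CoprodI


variable {ι : Type*} {G : ι → Type*} [∀ i, Group (G i)] [DecidableEq ι] [∀ i, DecidableEq (G i)]

theorem fstIdx_equiv_of (j : ι) (s : G j) (i : ι) (hij : j ≠ i) :
    (Word.equiv (of s : CoprodI G)).fstIdx ≠ some i := by
  have : Word.equiv (of s : CoprodI G) = of s • (Word.empty : Word G) := rfl
  rw [this, Word.of_smul_def]
  have h2 : Word.equivPair j (Word.empty : Word G) = ⟨1, Word.empty, by simp [Word.fstIdx]⟩ :=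
    Word.equivPair_eq_of_fstIdx_ne (by simp [Word.fstIdx])
  rw [h2]
  simp only [Word.rcons]
  split_ifs with h
  · simp [Word.fstIdx]
  · simp [hij]

theorem equiv_mul (x y : CoprodI G) : Word.equiv (x * y) = x • Word.equiv y := by
  show (x * y) • (Word.empty : Word G) = x • (y • (Word.empty : Word G))
  rw [mul_smul]

/-- Key lemma: right multiplication by a letter does not create a first letter of index `i`. -/
theorem fstIdx_equiv_prod_mul_of (j : ι) (s : G j) (τ : Word G) :
    ∀ i : ι, τ.fstIdx ≠ some i → (τ ≠ Word.empty ∨ j ≠ i) →
      (Word.equiv (τ.prod * of s)).fstIdx ≠ some i := by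
  induction τ using Word.consRecOn with
  | empty =>
    intro i _ h
    rcases h with h | h
    · exact absurd rfl h
    · simpa using fstIdx_equiv_of j s i h
  | cons k m τ' h1 h2 ih =>
    intro i hi _
    have hki : k ≠ i := by
      intro h; subst h; simp at hi
    rw [Word.prod_cons, mul_assoc, equiv_mul]
    by_cases hc : τ' ≠ Word.empty ∨ j ≠ k
    · have h3 := ih k h1 hc
      rw [← Word.cons_eq_smul (h1 := h3) (h2 := h2)]
      simp [hki]
    · push Not at hc
      obtain ⟨hc1, hc2⟩ := hc
      subst hc1; subst hc2
      rw [← equiv_mul]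
      have : of m * ((Word.empty : Word G).prod * of s) = of (m * s) := by simp
      rw [this]
      exact fstIdx_equiv_of j (m * s) i hki

/-- The `i`-head of an element of the free product. -/
noncomputable def headI (i : ι) (w : CoprodI G) : G i := (Word.equivPair i (Word.equiv w)).head

theorem headI_of_mul (i : ι) (g : G i) (w : CoprodI G) : headI i (of g * w) = g * headI i w := by
  unfold headI
  rw [equiv_mul, Word.equivPair_smul_same]

theorem headI_eq_one_of_fstIdx_ne (i : ι) (w : CoprodI G) (h : (Word.equiv w).fstIdx ≠ some i) :
    headI i w = 1 := by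
  unfold headI
  rw [Word.equivPair_eq_of_fstIdx_ne h]

theorem headI_one (i : ι) : headI i (1 : CoprodI G) = 1 := by
  apply headI_eq_one_of_fstIdx_ne
  have : Word.equiv (1 : CoprodI G) = Word.empty := by
    show (1 : CoprodI G) • (Word.empty : Word G) = _
    rw [one_smul]
  rw [this]; simp [Word.fstIdx]

theorem headI_of (i : ι) (g : G i) : headI i (of g : CoprodI G) = g := by
  have := headI_of_mul i g (1 : CoprodI G)
  rwa [mul_one, headI_one, mul_one] at this

/-- decomposition `w = of (headI i w) * tail` with tail not starting with `i`. -/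
theorem exists_tail (i : ι) (w : CoprodI G) :
    ∃ τ : Word G, τ.fstIdx ≠ some i ∧ w = of (headI i w) * τ.prod := by
  refine ⟨(Word.equivPair i (Word.equiv w)).tail, (Word.equivPair i (Word.equiv w)).fstIdx_ne, ?_⟩
  have h := Word.equivPair_head_smul_equivPair_tail (i := i) (Word.equiv w)
  have h2 := congrArg Word.prod h
  rw [Word.prod_smul] at h2
  have h3 : (Word.equiv w).prod = w := Word.equiv.symm_apply_apply w
  rw [h3] at h2
  exact h2.symm

/-- Right multiplication by a letter does not change the `i`-head, unless the element is in the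
`i`-th factor and the letter is from the `i`-th factor. -/
theorem headI_mul_of (i j : ι) (s : G j) (w : CoprodI G)
    (h : j ≠ i ∨ w ∉ Set.range (of : G i → CoprodI G)) :
    headI i (w * of s) = headI i w := by
  obtain ⟨τ, hτ, hw⟩ := exists_tail i w
  have hcond : τ ≠ Word.empty ∨ j ≠ i := by
    rcases h with h | h
    · exact Or.inr h
    · left
      intro he
      apply h
      refine ⟨headI i w, ?_⟩
      rw [he] at hw
      simpa using hw.symm
  have h1 := fstIdx_equiv_prod_mul_of j s τ i hτ hcond
  conv_lhs => rw [hw]
  rw [mul_assoc, headI_of_mul, headI_eq_one_of_fstIdx_ne i _ h1, mul_one]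


end

section
variable (A B : Type)

/-- The family of two groups. -/
def Fam : Bool → Type
  | false => A
  | true => B

variable [Group A] [Group B]

instance instGroupFam : ∀ i, Group (Fam A B i)
  | false => inferInstanceAs (Group A)
  | true => inferInstanceAs (Group B)

noncomputable instance instDecEqFam : ∀ i, DecidableEq (Fam A B i) := fun _ => Classical.decEq _

variable {A B}

def ofL : A →* CoprodI (Fam A B) := CoprodI.of (M := Fam A B) (i := false)
def ofR : B →* CoprodI (Fam A B) := CoprodI.of (M := Fam A B) (i := true)

def toI : Coprod A B →* CoprodI (Fam A B) := Coprod.lift ofL ofR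

def famHom : ∀ i, Fam A B i →* Coprod A B
  | false => (Coprod.inl : A →* Coprod A B)
  | true => (Coprod.inr : B →* Coprod A B)

def fromI : CoprodI (Fam A B) →* Coprod A B := CoprodI.lift famHom

theorem toI_inl (g : A) : toI (Coprod.inl g : Coprod A B) = CoprodI.of (M := Fam A B) (i := false) g :=
  Coprod.lift_apply_inl _ _ _

theorem toI_inr (g : B) : toI (Coprod.inr g : Coprod A B) = CoprodI.of (M := Fam A B) (i := true) g :=
  Coprod.lift_apply_inr _ _ _

theorem fromI_toI (w : Coprod A B) : fromI (toI w) = w := by
  have : (fromI.comp toI : Coprod A B →* Coprod A B) = MonoidHom.id _ := by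
    apply Coprod.hom_ext
    · ext x
      simp only [MonoidHom.comp_apply, toI_inl, MonoidHom.id_apply]
      exact CoprodI.lift_of (M := Fam A B) famHom (i := false) x
    · ext x
      simp only [MonoidHom.comp_apply, toI_inr, MonoidHom.id_apply]
      exact CoprodI.lift_of (M := Fam A B) famHom (i := true) x
  exact DFunLike.congr_fun this w

theorem toI_injective : Function.Injective (toI : Coprod A B → CoprodI (Fam A B)) :=
  Function.LeftInverse.injective fromI_toI

noncomputable def headL (w : Coprod A B) : A := headI (G := Fam A B) false (toI w)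
noncomputable def headR (w : Coprod A B) : B := headI (G := Fam A B) true (toI w)

theorem headL_inl_mul (g : A) (w : Coprod A B) : headL (Coprod.inl g * w) = g * headL w := by
  unfold headL
  rw [map_mul, toI_inl]
  exact headI_of_mul (G := Fam A B) false g _

theorem headR_inr_mul (g : B) (w : Coprod A B) : headR (Coprod.inr g * w) = g * headR w := by
  unfold headR
  rw [map_mul, toI_inr]
  exact headI_of_mul (G := Fam A B) true g _

theorem headL_inl (g : A) : headL (Coprod.inl g : Coprod A B) = g := by
  unfold headL
  rw [toI_inl]
  exact headI_of (G := Fam A B) false g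

theorem headR_inr (g : B) : headR (Coprod.inr g : Coprod A B) = g := by
  unfold headR
  rw [toI_inr]
  exact headI_of (G := Fam A B) true g

theorem headL_mul_inr (s : B) (w : Coprod A B) : headL (w * Coprod.inr s) = headL w := by
  unfold headL
  rw [map_mul, toI_inr]
  exact headI_mul_of (G := Fam A B) false true s _ (Or.inl (by simp))

theorem headR_mul_inl (s : A) (w : Coprod A B) : headR (w * Coprod.inl s) = headR w := by
  unfold headR
  rw [map_mul, toI_inl]
  exact headI_mul_of (G := Fam A B) true false s _ (Or.inl (by simp))

theorem headL_mul_inl (s : A) (w : Coprod A B) (hw : w ∉ Set.range (Coprod.inl : A → Coprod A B)) :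
    headL (w * Coprod.inl s) = headL w := by
  unfold headL
  rw [map_mul, toI_inl]
  refine headI_mul_of (G := Fam A B) false false s _ (Or.inr ?_)
  rintro ⟨g, hg⟩
  apply hw
  refine ⟨(g : A), toI_injective ?_⟩
  rw [← hg]
  exact toI_inl (g : A)

theorem headR_mul_inr (s : B) (w : Coprod A B) (hw : w ∉ Set.range (Coprod.inr : B → Coprod A B)) :
    headR (w * Coprod.inr s) = headR w := by
  unfold headR
  rw [map_mul, toI_inr]
  refine headI_mul_of (G := Fam A B) true true s _ (Or.inr ?_)
  rintro ⟨g, hg⟩
  apply hw
  refine ⟨(g : B), toI_injective ?_⟩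
  rw [← hg]
  exact toI_inr (g : B)

end


end Vale.Agent.P143
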