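import Vale.Agent.Lib.P143.MuSide
import Vale.Agent.Lib.P143.FreeProd

/-!
# P143: the free uniform spanning forest of a group with two free factors
-/

open SimpleGraph MeasureTheory Filter Topology

namespace Vale.Agent.P143

variable {Γ A B : Type*} [Group Γ] [Group A] [Group B]

theorem tendsto_block {V V₀ : Type*} [Nonempty V₀] {G : SimpleGraph V} {G₀ : SimpleGraph V₀}
    {j : V₀ → V} {r : V → V₀} (b : Block G G₀ j r) {μ₀ : Measure (Set (Sym2 V₀))}
    (h : IsFUSF G₀ μ₀) {H : ℕ → G.Subgraph} (hH : IsExhaustion G H) (K P : Finset (Sym2 V₀)) :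
    Tendsto (fun n => ustProb ((H n).comap b.hom) (cyl K P)) atTop (𝓝 (μ₀ (cyl K P)).toReal) := by
  obtain ⟨n₀, hn₀⟩ := b.exhaustion_comap hH
  have := h.2 _ hn₀ K P
  exact (tendsto_add_atTop_iff_nat (f := fun n => ustProb ((H n).comap b.hom) (cyl K P)) n₀).mp this

namespace TwoFactors

variable {ιA : A →* Γ} {hdA : Γ → A} {ιB : B →* Γ} {hdB : Γ → B} {S : Set Γ}
  {SA : Set A} {SB : Set B} (t : TwoFactors ιA hdA ιB hdB S SA SB)
  {ΦA : (A → unitInterval) → Set (Sym2 A)} {ΦB : (B → unitInterval) → Set (Sym2 B)}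
include t

theorem isFUSF (hA : Equivar ΦA) (hB : Equivar ΦB) (mA : Measurable ΦA) (mB : Measurable ΦB)
    (fA : IsFUSF (mulCayley SA) ((iidLaw A).map ΦA))
    (fB : IsFUSF (mulCayley SB) ((iidLaw B).map ΦB)) :
    IsFUSF (mulCayley S) ((iidLaw Γ).map (prodF ιA ιB SA SB ΦA ΦB)) := by
  refine ⟨Measure.isProbabilityMeasure_map (t.measurable_prodF hA hB mA mB).aemeasurable, ?_⟩
  intro H hH K P
  by_cases hC : P ⊆ K ∧ ∀ e ∈ K, e ∉ (mulCayley S).edgeSet → e ∉ P
  · obtain ⟨hPK, hC⟩ := hC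
    obtain ⟨JA, hJA⟩ := exists_cover ιA K
    obtain ⟨JB, hJB⟩ := exists_cover ιB K
    obtain ⟨nA, hnA⟩ := (t.fA.block 1).exhaustion_comap hH
    obtain ⟨nB, hnB⟩ := (t.fB.block 1).exhaustion_comap hH
    rw [t.measure_cyl hA hB mA mB hPK hC hJA hJB]
    simp only [fun n => t.ustProb_cyl (H n) (hH.finite n) (hH.connected n) hPK hC hJA hJB,
      fA.measure_inter_edges hnA, fB.measure_inter_edges hnB, ENNReal.toReal_mul,
      ENNReal.toReal_prod]
    refine Tendsto.mul ?_ ?_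
    · exact tendsto_finset_prod _ fun c _ => tendsto_block _ fA hH _ _
    · exact tendsto_finset_prod _ fun c _ => tendsto_block _ fB hH _ _
  · rw [t.measure_cyl_zero hA hB mA mB hC]
    simp only [t.ustProb_cyl_zero _ hC]
    simp

end TwoFactors

end Vale.Agent.P143
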