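import Vale.Agent.Lib.P143.Defs

/-!
# P143: existence of exhaustions
-/

open SimpleGraph

namespace Vale.Agent.P143

variable {V : Type*}

theorem exists_exhaustion [Countable V] [Nonempty V] (G : SimpleGraph V) (hG : G.Preconnected) :
    ∃ H : ℕ → G.Subgraph, IsExhaustion G H := by
  classical
  obtain ⟨f, hf⟩ := exists_surjective_nat V
  let step : Finset V → ℕ → Finset V := fun t n =>
    Classical.choose (extend_finset_to_connected hG (t := insert (f n) t)
      ⟨f n, Finset.mem_insert_self _ _⟩)
  have hstep : ∀ t n, insert (f n) t ⊆ step t n ∧ (G.induce (step t n : Set V)).Connected :=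
    fun t n => Classical.choose_spec (extend_finset_to_connected hG (t := insert (f n) t)
      ⟨f n, Finset.mem_insert_self _ _⟩)
  obtain ⟨s, hs0, hs1⟩ : ∃ s : ℕ → Finset V, s 0 = step ∅ 0 ∧
      ∀ k, s (k + 1) = step (s k) (k + 1) :=
    ⟨fun n => Nat.rec (step ∅ 0) (fun k t => step t (k + 1)) n, rfl, fun _ => rfl⟩
  have hmem : ∀ n, f n ∈ s n := by
    intro n
    cases n with
    | zero => rw [hs0]; exact (hstep _ _).1 (Finset.mem_insert_self _ _)
    | succ k => rw [hs1]; exact (hstep _ _).1 (Finset.mem_insert_self _ _)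
  have hconn : ∀ n, (G.induce ((s n : Finset V) : Set V)).Connected := by
    intro n
    cases n with
    | zero => rw [hs0]; exact (hstep _ _).2
    | succ k => rw [hs1]; exact (hstep _ _).2
  have hmono : Monotone s := by
    apply monotone_nat_of_le_succ
    intro k
    rw [hs1]
    exact (Finset.subset_insert _ _).trans (hstep _ _).1
  refine ⟨fun n => (⊤ : G.Subgraph).induce ((s n : Finset V) : Set V), ?_, ?_, ?_, ?_⟩
  · intro n
    exact (s n).finite_toSet
  · intro n
    exact connected_induce_iff.mp (hconn n)
  · intro m n hmn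
    exact Subgraph.induce_mono_right (by exact_mod_cast hmono hmn)
  · apply le_antisymm le_top
    constructor
    · intro v _
      obtain ⟨n, rfl⟩ := hf v
      rw [Subgraph.verts_iSup]
      exact Set.mem_iUnion.mpr ⟨n, hmem n⟩
    · intro u v huv
      obtain ⟨m, rfl⟩ := hf u
      obtain ⟨n, rfl⟩ := hf v
      rw [Subgraph.iSup_adj]
      refine ⟨max m n, ?_⟩
      simp only [Subgraph.induce_adj, Subgraph.top_adj, Finset.mem_coe]
      exact ⟨hmono (le_max_left m n) (hmem m), hmono (le_max_right m n) (hmem n), huv⟩

end Vale.Agent.P143
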