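import Vale.Agent.Lib.P143.Closure
import Vale.Agent.Lib.P143.Exhaust

/-!
# P143: the free product of two groups has two free factors
-/

open Monoid SimpleGraph MeasureTheory

namespace Vale.Agent.P143

theorem preconnected_of_closure {Γ : Type*} [Group Γ] (S : Set Γ) (h : Subgroup.closure S = ⊤) :
    (mulCayley S).Preconnected := by
  have key : ∀ x ∈ Subgroup.closure S, ∀ u : Γ, (mulCayley S).Reachable u (u * x) := by
    intro x hx
    induction hx using Subgroup.closure_induction with
    | mem s hs =>
      intro u
      by_cases hu : u = u * s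
      · rw [← hu]
      · apply Adj.reachable
        rw [mulCayley_adj']
        exact ⟨hu, s, hs, Or.inl rfl⟩
    | one => intro u; simp
    | mul x y _ _ hx hy =>
      intro u
      rw [← mul_assoc]
      exact (hx u).trans (hy _)
    | inv x _ hx =>
      intro u
      have := hx (u * x⁻¹)
      rw [inv_mul_cancel_right] at this
      exact this.symm
  intro u v
  have := key (u⁻¹ * v) (by rw [h]; trivial) u
  rwa [mul_inv_cancel_left] at this

variable {A B : Type} [Group A] [Group B]

theorem closure_coprod (SA : Set A) (SB : Set B) (hA : Subgroup.closure SA = ⊤)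
    (hB : Subgroup.closure SB = ⊤) :
    Subgroup.closure ((Coprod.inl : A →* Coprod A B) '' SA ∪ (Coprod.inr : B →* Coprod A B) '' SB)
      = ⊤ := by
  rw [Subgroup.closure_union, ← MonoidHom.map_closure, ← MonoidHom.map_closure, hA, hB,
    ← MonoidHom.range_eq_map, ← MonoidHom.range_eq_map, Coprod.range_inl_sup_range_inr]

theorem coprod_triv (a : A) (b : B) (h : (Coprod.inl a : Coprod A B) = Coprod.inr b) :
    a = 1 ∧ b = 1 := by
  have h1 := congrArg Coprod.fst h
  have h2 := congrArg Coprod.snd h
  simp only [Coprod.fst_apply_inl, Coprod.fst_apply_inr, Coprod.snd_apply_inl,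
    Coprod.snd_apply_inr] at h1 h2
  exact ⟨h1, h2.symm⟩

theorem twoFactors_coprod (SA : Set A) (SB : Set B) :
    TwoFactors (Coprod.inl : A →* Coprod A B) headL (Coprod.inr : B →* Coprod A B) headR
      ((Coprod.inl : A →* Coprod A B) '' SA ∪ (Coprod.inr : B →* Coprod A B) '' SB) SA SB where
  fA :=
    { hd_mul := headL_inl_mul
      hd_one := by
        have := headL_inl (B := B) (1 : A)
        rwa [map_one] at this
      step := by
        rintro s (⟨a, _, rfl⟩ | ⟨b, _, rfl⟩) w
        · by_cases hw : w ∈ Set.range (Coprod.inl : A → Coprod A B)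
          · exact Or.inr ⟨hw, ⟨a, rfl⟩⟩
          · exact Or.inl (headL_mul_inl a w hw)
        · exact Or.inl (headL_mul_inr b w)
      mem_iff := by
        intro a ha
        constructor
        · rintro (⟨a', ha', h⟩ | ⟨b, _, h⟩)
          · rw [← Coprod.inl_injective h]; exact ha'
          · exact absurd (coprod_triv a b h.symm).1 ha
        · intro h
          exact Or.inl ⟨a, h, rfl⟩ }
  fB :=
    { hd_mul := headR_inr_mul
      hd_one := by
        have := headR_inr (A := A) (1 : B)
        rwa [map_one] at this
      step := by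
        rintro s (⟨a, _, rfl⟩ | ⟨b, _, rfl⟩) w
        · exact Or.inl (headR_mul_inl a w)
        · by_cases hw : w ∈ Set.range (Coprod.inr : B → Coprod A B)
          · exact Or.inr ⟨hw, ⟨b, rfl⟩⟩
          · exact Or.inl (headR_mul_inr b w hw)
      mem_iff := by
        intro b hb
        constructor
        · rintro (⟨a, _, h⟩ | ⟨b', hb', h⟩)
          · exact absurd (coprod_triv a b h).2 hb
          · rw [← Coprod.inr_injective h]; exact hb'
        · intro h
          exact Or.inr ⟨b, h, rfl⟩ }
  triv := coprod_triv
  cover := by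
    rintro s (⟨a, _, rfl⟩ | ⟨b, _, rfl⟩)
    · exact Or.inl ⟨a, rfl⟩
    · exact Or.inr ⟨b, rfl⟩

/-- Closure of the class of Cayley graphs whose free uniform spanning forest is a factor of IID
under free products. -/
theorem fusf_coprod (SA : Set A) (SB : Set B) (μA : Measure (Set (Sym2 A)))
    (μB : Measure (Set (Sym2 B))) (hA : IsFUSF (mulCayley SA) μA) (hA' : IsFactorOfIID A μA)
    (hB : IsFUSF (mulCayley SB) μB) (hB' : IsFactorOfIID B μB) :
    ∃ μ : Measure (Set (Sym2 (Coprod A B))),
      IsFUSF (mulCayley ((Coprod.inl : A →* Coprod A B) '' SA ∪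
        (Coprod.inr : B →* Coprod A B) '' SB)) μ ∧ IsFactorOfIID (Coprod A B) μ := by
  obtain ⟨ΦA, mA, eA, rfl⟩ := hA'
  obtain ⟨ΦB, mB, eB, rfl⟩ := hB'
  have t := twoFactors_coprod SA SB
  exact ⟨_, t.isFUSF eA eB mA mB hA hB, _, t.measurable_prodF eA eB mA mB,
    prodF_equivariant _ _ _ _ _ _, rfl⟩

instance [Countable A] [Countable B] : Countable (Coprod A B) := Coprod.mk_surjective.countable

end Vale.Agent.P143
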