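import Vale.Agent.Lib.P143.Defs

/-!
# P143: spanning trees in graphs made of triangle blocks and bridges
-/

open SimpleGraph

namespace Vale.Agent.P143

variable {V : Type*}

/-- The edges of `T` with both ends in `B`. -/
def inside (T : SimpleGraph V) (B : Set V) : SimpleGraph V where
  Adj u v := T.Adj u v ∧ u ∈ B ∧ v ∈ B
  symm := ⟨fun _ _ h => ⟨h.1.symm, h.2.2, h.2.1⟩⟩
  loopless := ⟨fun _ h => h.1.ne rfl⟩

theorem inside_adj {T : SimpleGraph V} {B : Set V} {u v : V} :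
    (inside T B).Adj u v ↔ T.Adj u v ∧ u ∈ B ∧ v ∈ B := Iff.rfl

theorem reachable_inside {G T : SimpleGraph V} (hT : T ≤ G) (B : Set V) (π : V → V)
    (hπ : ∀ u v, G.Adj u v → π u = π v ∨ (u ∈ B ∧ v ∈ B ∧ π u = u ∧ π v = v))
    {u v : V} (h : T.Reachable u v) : (inside T B).Reachable (π u) (π v) := by
  obtain ⟨p⟩ := h
  induction p with
  | nil => exact Reachable.refl _
  | cons hadj _ ih =>
    refine Reachable.trans ?_ ih
    rcases hπ _ _ (hT hadj) with h | ⟨h1, h2, h3, h4⟩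
    · rw [h]
    · rw [h3, h4]
      exact Adj.reachable (inside_adj.mpr ⟨hadj, h1, h2⟩)

/-- From reachability between distinct vertices, get a first edge. -/
theorem exists_adj_of_reachable_ne {T : SimpleGraph V} {u v : V} (h : T.Reachable u v)
    (hne : u ≠ v) : ∃ w, T.Adj u w := by
  obtain ⟨p⟩ := h
  cases p with
  | nil => exact absurd rfl hne
  | cons hadj _ => exact ⟨_, hadj⟩

/-- Exchange in a triangle. -/
theorem exchange {T : SimpleGraph V} (hT : T.IsAcyclic) {x y z : V} (hxy : T.Adj x y)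
    (hyz : T.Adj y z) (hxz : x ≠ z) :
    (T.deleteEdges {s(x, y)} ⊔ edge x z).IsAcyclic ∧
      ∀ u v, T.Reachable u v → (T.deleteEdges {s(x, y)} ⊔ edge x z).Reachable u v := by
  have hbr : ¬ (T.deleteEdges {s(x, y)}).Reachable x y :=
    isBridge_iff.mp (isAcyclic_iff_forall_adj_isBridge.mp hT hxy)
  have hzy : (T.deleteEdges {s(x, y)}).Adj z y := by
    rw [deleteEdges_adj]
    refine ⟨hyz.symm, ?_⟩
    simp only [Set.mem_singleton_iff, Sym2.eq_iff, not_or, not_and]
    refine ⟨fun h => absurd h.symm hxz, fun h _ => absurd h hyz.ne.symm⟩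
  constructor
  · apply IsAcyclic.sup_edge_of_not_reachable
    · intro h
      exact hbr (h.trans hzy.reachable)
    · exact hT.anti (deleteEdges_le _)
  · intro u v h
    obtain ⟨p⟩ := h
    induction p with
    | nil => exact Reachable.refl _
    | @cons p q r hadj _ ih =>
      refine Reachable.trans ?_ ih
      by_cases he : s(p, q) = s(x, y)
      · have hxz' : (T.deleteEdges {s(x, y)} ⊔ edge x z).Adj x z := by
          right
          rw [edge_adj]
          exact ⟨Or.inl ⟨rfl, rfl⟩, hxz⟩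
        have hzy' : (T.deleteEdges {s(x, y)} ⊔ edge x z).Adj z y := Or.inl hzy
        have hr : (T.deleteEdges {s(x, y)} ⊔ edge x z).Reachable x y :=
          hxz'.reachable.trans hzy'.reachable
        rcases Sym2.eq_iff.mp he with ⟨rfl, rfl⟩ | ⟨rfl, rfl⟩
        · exact hr
        · exact hr.symm
      · apply Adj.reachable
        left
        rw [deleteEdges_adj]
        exact ⟨hadj, by simpa using he⟩


/-- A graph in which every vertex lies in exactly one triangle `{v, ρ v, ρ (ρ v)}`, the triangles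
are blocks and all other edges are bridges. -/
structure TriSys (G : SimpleGraph V) (ρ : V → V) : Prop where
  cube : ∀ v, ρ (ρ (ρ v)) = v
  ne : ∀ v, ρ v ≠ v
  adj : ∀ v, G.Adj v (ρ v)
  block : ∀ T ≤ G, ∀ v, T.Reachable v (ρ v) → T.Adj v (ρ v) ∨ T.Adj v (ρ (ρ v))
  bridge : ∀ u v, G.Adj u v → v ≠ ρ u → u ≠ ρ v → ∀ T ≤ G, T.Reachable u v → T.Adj u v

/-- The edge opposite to `v` in its triangle. -/
def opp (ρ : V → V) (v : V) : Sym2 V := s(ρ v, ρ (ρ v))

/-- The triangle of `v` is contained in `H`. -/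
def TriIn {G : SimpleGraph V} (H : G.Subgraph) (ρ : V → V) (v : V) : Prop :=
  H.Adj v (ρ v) ∧ H.Adj (ρ v) (ρ (ρ v)) ∧ H.Adj (ρ (ρ v)) v

/-- The exchange map. -/
def xch (ρ : V → V) (u : V) (T : SimpleGraph V) : SimpleGraph V :=
  T.deleteEdges {s(ρ (ρ u), u)} ⊔ edge (ρ (ρ u)) (ρ u)

/-- The three edges of the triangle of `u`. -/
def triEdges (ρ : V → V) (u : V) : Set (Sym2 V) := {opp ρ u, opp ρ (ρ u), opp ρ (ρ (ρ u))}

/-- Two graphs agree off a set of edges. -/
def AgreeOff (S : Set (Sym2 V)) (T T' : SimpleGraph V) : Prop :=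
  ∀ e, e ∉ S → (e ∈ T.edgeSet ↔ e ∈ T'.edgeSet)

namespace TriSys

variable {G : SimpleGraph V} {ρ : V → V} (h : TriSys G ρ)
include h

theorem inj : Function.Injective ρ := by
  intro u v huv
  have := congrArg (fun x => ρ (ρ x)) huv
  simpa [h.cube] using this

theorem ne2 (v : V) : ρ (ρ v) ≠ v := by
  intro hv
  have := congrArg ρ hv
  rw [h.cube] at this
  exact h.ne v this.symm

theorem opp_inj : Function.Injective (opp ρ) := by
  intro u v huv
  rcases Sym2.eq_iff.mp huv with ⟨h1, _⟩ | ⟨h1, h2⟩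
  · exact h.inj h1
  · have h3 : u = ρ v := h.inj h1
    subst h3
    rw [h.cube] at h2
    exact absurd h2.symm (h.ne v)

theorem finite_spanningTrees (H : G.Subgraph) (hfin : H.verts.Finite) :
    {T | IsSpanningTree H T}.Finite := by
  have hE : H.spanningCoe.edgeSet.Finite := by
    apply Set.Finite.subset ((hfin.prod hfin).image (fun p : V × V => s(p.1, p.2)))
    intro e he
    induction e using Sym2.ind with
    | _ x y =>
      have hxy : H.Adj x y := by simpa using he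
      exact ⟨(x, y), ⟨H.edge_vert hxy, H.edge_vert hxy.symm⟩, rfl⟩
  have : {T : SimpleGraph V | T ≤ H.spanningCoe}.Finite := by
    apply Set.Finite.of_finite_image (f := edgeSet)
    · apply Set.Finite.subset hE.finite_subsets
      rintro _ ⟨T, hT, rfl⟩
      exact edgeSet_mono hT
    · exact fun _ _ _ _ hh => edgeSet_injective hh
  exact this.subset fun T hT => hT.1

theorem triIn_rho {H : G.Subgraph} {v : V} (hv : TriIn H ρ v) : TriIn H ρ (ρ v) := by
  obtain ⟨h1, h2, h3⟩ := hv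
  refine ⟨h2, ?_, ?_⟩
  · rw [h.cube]; exact h3
  · rw [h.cube]; exact h1

theorem le_G {H : G.Subgraph} {T : SimpleGraph V} (hT : IsSpanningTree H T) : T ≤ G :=
  hT.1.trans H.spanningCoe_le

theorem has_edge {H : G.Subgraph} {T : SimpleGraph V} (hT : IsSpanningTree H T) {v : V}
    (hv : TriIn H ρ v) : T.Adj v (ρ v) ∨ T.Adj v (ρ (ρ v)) :=
  h.block T (h.le_G hT) v (hT.2.2 _ (H.edge_vert hv.1) _ (H.edge_vert hv.1.symm))

theorem opp_rho (u : V) : opp ρ (ρ u) = s(ρ (ρ u), u) := by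
  simp [opp, h.cube]

theorem opp_rho2 (u : V) : opp ρ (ρ (ρ u)) = s(u, ρ u) := by
  simp [opp, h.cube]

theorem adj_of_missing {H : G.Subgraph} {T : SimpleGraph V} (hT : IsSpanningTree H T) {u : V}
    (hu : TriIn H ρ u) (hm : opp ρ u ∉ T.edgeSet) : T.Adj u (ρ u) ∧ T.Adj (ρ (ρ u)) u := by
  have hm' : ¬ T.Adj (ρ u) (ρ (ρ u)) := by simpa [opp] using hm
  constructor
  · rcases h.has_edge hT (h.triIn_rho hu) with h1 | h1
    · exact absurd h1 hm'
    · rw [h.cube] at h1; exact h1.symm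
  · rcases h.has_edge hT (h.triIn_rho (h.triIn_rho hu)) with h1 | h1
    · rw [h.cube] at h1; exact h1
    · rw [h.cube] at h1; exact absurd h1.symm hm'

theorem exists_missing {H : G.Subgraph} {T : SimpleGraph V} (hT : IsSpanningTree H T) (u : V) :
    opp ρ u ∉ T.edgeSet ∨ opp ρ (ρ u) ∉ T.edgeSet ∨ opp ρ (ρ (ρ u)) ∉ T.edgeSet := by
  by_contra hcon
  push Not at hcon
  obtain ⟨h1, h2, h3⟩ := hcon
  rw [h.opp_rho] at h2
  rw [h.opp_rho2] at h3
  have a1 : T.Adj (ρ u) (ρ (ρ u)) := by simpa [opp] using h1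
  have a2 : T.Adj (ρ (ρ u)) u := by simpa using h2
  have a3 : T.Adj u (ρ u) := by simpa using h3
  have hbr : ¬ (T.deleteEdges {s(u, ρ u)}).Reachable u (ρ u) :=
    isBridge_iff.mp (isAcyclic_iff_forall_adj_isBridge.mp hT.2.1 a3)
  apply hbr
  have b1 : (T.deleteEdges {s(u, ρ u)}).Adj u (ρ (ρ u)) := by
    rw [deleteEdges_adj]
    refine ⟨a2.symm, ?_⟩
    simp only [Set.mem_singleton_iff, Sym2.eq_iff, not_or, not_and]
    exact ⟨fun _ hh => h.ne _ hh, fun hh _ => h.ne _ hh.symm⟩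
  have b2 : (T.deleteEdges {s(u, ρ u)}).Adj (ρ (ρ u)) (ρ u) := by
    rw [deleteEdges_adj]
    refine ⟨a1.symm, ?_⟩
    simp only [Set.mem_singleton_iff, Sym2.eq_iff, not_or, not_and]
    exact ⟨fun hh _ => h.ne2 _ hh, fun hh _ => h.ne _ hh⟩
  exact b1.reachable.trans b2.reachable

theorem mem_xch_edgeSet (u : V) (T : SimpleGraph V) (e : Sym2 V) :
    e ∈ (xch ρ u T).edgeSet ↔ (e ∈ T.edgeSet ∧ e ≠ opp ρ (ρ u)) ∨ e = opp ρ u := by
  rw [h.opp_rho]
  induction e using Sym2.ind with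
  | _ x y =>
    simp only [xch, mem_edgeSet, sup_adj, deleteEdges_adj, Set.mem_singleton_iff, edge_adj, opp]
    constructor
    · rintro (h1 | ⟨h1, _⟩)
      · exact Or.inl h1
      · right
        rw [Sym2.eq_iff]
        tauto
    · rintro (h1 | h1)
      · exact Or.inl h1
      · right
        rw [Sym2.eq_iff] at h1
        refine ⟨by tauto, ?_⟩
        rcases h1 with ⟨rfl, rfl⟩ | ⟨rfl, rfl⟩
        · exact (h.ne _).symm
        · exact h.ne _

theorem xch_spanning {H : G.Subgraph} {T : SimpleGraph V} (hT : IsSpanningTree H T) {u : V}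
    (hu : TriIn H ρ u) (hm : opp ρ u ∉ T.edgeSet) : IsSpanningTree H (xch ρ u T) := by
  obtain ⟨a1, a2⟩ := h.adj_of_missing hT hu hm
  obtain ⟨e1, e2⟩ := exchange hT.2.1 a2 a1 (h.ne (ρ u))
  refine ⟨?_, e1, fun x hx y hy => e2 _ _ (hT.2.2 x hx y hy)⟩
  apply sup_le
  · exact (deleteEdges_le _).trans hT.1
  · intro x y hxy
    rw [edge_adj] at hxy
    rcases hxy.1 with ⟨rfl, rfl⟩ | ⟨rfl, rfl⟩
    · exact hu.2.1.symm
    · exact hu.2.1

theorem triEdges_rho (u : V) : triEdges ρ (ρ u) = triEdges ρ u := by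
  ext e
  simp only [triEdges, h.cube, Set.mem_insert_iff, Set.mem_singleton_iff]
  tauto

theorem others_of_missing {H : G.Subgraph} {T : SimpleGraph V} (hT : IsSpanningTree H T) {u : V}
    (hu : TriIn H ρ u) (hm : opp ρ u ∉ T.edgeSet) :
    opp ρ (ρ u) ∈ T.edgeSet ∧ opp ρ (ρ (ρ u)) ∈ T.edgeSet := by
  obtain ⟨a1, a2⟩ := h.adj_of_missing hT hu hm
  rw [h.opp_rho, h.opp_rho2]
  exact ⟨a2, a1⟩

theorem card_le_step (H : G.Subgraph) (hfin : H.verts.Finite) {u : V} (hu : TriIn H ρ u)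
    (Q : SimpleGraph V → Prop) (hQ : ∀ T T', AgreeOff (triEdges ρ u) T T' → Q T → Q T') :
    {T | IsSpanningTree H T ∧ Q T ∧ opp ρ u ∉ T.edgeSet}.ncard ≤
      {T | IsSpanningTree H T ∧ Q T ∧ opp ρ (ρ u) ∉ T.edgeSet}.ncard := by
  refine Set.ncard_le_ncard_of_injOn (xch ρ u) ?_ ?_
    ((h.finite_spanningTrees H hfin).subset fun T hT => hT.1)
  · rintro T ⟨hT, hq, hm⟩
    refine ⟨h.xch_spanning hT hu hm, hQ T _ ?_ hq, ?_⟩
    · intro e he
      rw [h.mem_xch_edgeSet]
      simp only [triEdges, Set.mem_insert_iff, Set.mem_singleton_iff, not_or] at he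
      tauto
    · rw [h.mem_xch_edgeSet]
      rintro (⟨_, h2⟩ | h2)
      · exact h2 rfl
      · exact h.ne u (h.opp_inj h2)
  · rintro T1 ⟨hT1, _, hm1⟩ T2 ⟨hT2, _, hm2⟩ heq
    apply edgeSet_injective
    ext e
    by_cases he1 : e = opp ρ u
    · subst he1; tauto
    by_cases he2 : e = opp ρ (ρ u)
    · subst he2
      have := (h.others_of_missing hT1 hu hm1).1
      have := (h.others_of_missing hT2 hu hm2).1
      tauto
    have e1 := h.mem_xch_edgeSet u T1 e
    have e2 := h.mem_xch_edgeSet u T2 e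
    have heq' : xch ρ u T1 = xch ρ u T2 := heq
    rw [heq'] at e1
    tauto

theorem card_step (H : G.Subgraph) (hfin : H.verts.Finite) {u : V} (hu : TriIn H ρ u)
    (Q : SimpleGraph V → Prop) (hQ : ∀ T T', AgreeOff (triEdges ρ u) T T' → Q T → Q T') :
    3 * {T | IsSpanningTree H T ∧ Q T ∧ opp ρ u ∉ T.edgeSet}.ncard =
      {T | IsSpanningTree H T ∧ Q T}.ncard := by
  have hu1 := h.triIn_rho hu
  have hu2 := h.triIn_rho hu1
  have l1 := h.card_le_step H hfin hu Q hQ
  have l2 := h.card_le_step H hfin hu1 Q (by rw [h.triEdges_rho]; exact hQ)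
  have l3 := h.card_le_step H hfin hu2 Q (by rw [h.triEdges_rho, h.triEdges_rho]; exact hQ)
  rw [h.cube] at l3
  set A0 := {T | IsSpanningTree H T ∧ Q T ∧ opp ρ u ∉ T.edgeSet} with hA0
  set A1 := {T | IsSpanningTree H T ∧ Q T ∧ opp ρ (ρ u) ∉ T.edgeSet} with hA1
  set A2 := {T | IsSpanningTree H T ∧ Q T ∧ opp ρ (ρ (ρ u)) ∉ T.edgeSet} with hA2
  have hf : ∀ (P : SimpleGraph V → Prop), {T | IsSpanningTree H T ∧ P T}.Finite := fun P =>
    (h.finite_spanningTrees H hfin).subset fun T hT => hT.1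
  have hU : {T | IsSpanningTree H T ∧ Q T} = A0 ∪ (A1 ∪ A2) := by
    ext T
    simp only [hA0, hA1, hA2, Set.mem_ofPred_eq, Set.mem_union]
    constructor
    · rintro ⟨hT, hq⟩
      rcases h.exists_missing hT u with h1 | h1 | h1 <;> tauto
    · tauto
  have d12 : Disjoint A1 A2 := by
    rw [Set.disjoint_left]
    rintro T ⟨hT, _, hm⟩ ⟨_, _, hm'⟩
    exact hm' (h.others_of_missing hT hu1 hm).1
  have d0 : Disjoint A0 (A1 ∪ A2) := by
    rw [Set.disjoint_left]
    rintro T ⟨hT, _, hm⟩ hT'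
    have := h.others_of_missing hT hu hm
    rcases hT' with ⟨_, _, hm'⟩ | ⟨_, _, hm'⟩
    · exact hm' this.1
    · exact hm' this.2
  rw [hU, Set.ncard_union_eq d0 (hf _) ((hf _).union (hf _)), Set.ncard_union_eq d12 (hf _) (hf _)]
  omega


end TriSys

end Vale.Agent.P143
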