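import Vale.Agent.Lib.P143.FreeProd
import Vale.Agent.Lib.P143.TriSys

/-!
# P143: retractions of a free product onto cosets of the factors
-/

open Monoid SimpleGraph

namespace Vale.Agent.P143

section
variable {A B : Type} [Group A] [Group B]

/-- Retraction of the free product onto the coset `x * inr B`. -/
noncomputable def projR (x w : Coprod A B) : Coprod A B := x * Coprod.inr (headR (x⁻¹ * w))
/-- Retraction of the free product onto the coset `x * inl A`. -/
noncomputable def projL (x w : Coprod A B) : Coprod A B := x * Coprod.inl (headL (x⁻¹ * w))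

/-- The coset `x * inr B`. -/
def cosetR (x : Coprod A B) : Set (Coprod A B) := {w | x⁻¹ * w ∈ Set.range (Coprod.inr : B → Coprod A B)}
/-- The coset `x * inl A`. -/
def cosetL (x : Coprod A B) : Set (Coprod A B) := {w | x⁻¹ * w ∈ Set.range (Coprod.inl : A → Coprod A B)}

theorem projR_of_mem {x w : Coprod A B} (hw : w ∈ cosetR x) : projR x w = w := by
  obtain ⟨g, hg⟩ := hw
  unfold projR
  rw [← hg, headR_inr, hg]
  group

theorem projL_of_mem {x w : Coprod A B} (hw : w ∈ cosetL x) : projL x w = w := by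
  obtain ⟨g, hg⟩ := hw
  unfold projL
  rw [← hg, headL_inl, hg]
  group

theorem projR_mul_inl (x u : Coprod A B) (s : A) : projR x (u * Coprod.inl s) = projR x u := by
  unfold projR
  rw [← mul_assoc, headR_mul_inl]

theorem projL_mul_inr (x u : Coprod A B) (s : B) : projL x (u * Coprod.inr s) = projL x u := by
  unfold projL
  rw [← mul_assoc, headL_mul_inr]

theorem projR_mul_inr (x u : Coprod A B) (s : B) :
    projR x (u * Coprod.inr s) = projR x u ∨ (u ∈ cosetR x ∧ u * Coprod.inr s ∈ cosetR x) := by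
  by_cases hu : u ∈ cosetR x
  · right
    refine ⟨hu, ?_⟩
    obtain ⟨g, hg⟩ := hu
    refine ⟨g * s, ?_⟩
    rw [map_mul, hg, mul_assoc]
  · left
    unfold projR
    rw [← mul_assoc, headR_mul_inr _ _ hu]

theorem projL_mul_inl (x u : Coprod A B) (s : A) :
    projL x (u * Coprod.inl s) = projL x u ∨ (u ∈ cosetL x ∧ u * Coprod.inl s ∈ cosetL x) := by
  by_cases hu : u ∈ cosetL x
  · right
    refine ⟨hu, ?_⟩
    obtain ⟨g, hg⟩ := hu
    refine ⟨g * s, ?_⟩
    rw [map_mul, hg, mul_assoc]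
  · left
    unfold projL
    rw [← mul_assoc, headL_mul_inl _ _ hu]

theorem projR_adj {S : Set (Coprod A B)}
    (hS : ∀ g ∈ S, g ∈ Set.range (Coprod.inl : A → Coprod A B) ∨
      g ∈ Set.range (Coprod.inr : B → Coprod A B)) (x u w : Coprod A B)
    (huw : (mulCayley S).Adj u w) :
    projR x u = projR x w ∨ (u ∈ cosetR x ∧ w ∈ cosetR x ∧ projR x u = u ∧ projR x w = w) := by
  rw [mulCayley_adj'] at huw
  obtain ⟨_, g, hg, h1⟩ := huw
  rcases hS g hg with ⟨s, rfl⟩ | ⟨s, rfl⟩
  · rcases h1 with rfl | rfl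
    · left; rw [projR_mul_inl]
    · left; rw [projR_mul_inl]
  · rcases h1 with rfl | rfl
    · rcases projR_mul_inr x u s with h2 | ⟨h2, h3⟩
      · exact Or.inl h2.symm
      · exact Or.inr ⟨h2, h3, projR_of_mem h2, projR_of_mem h3⟩
    · rcases projR_mul_inr x w s with h2 | ⟨h2, h3⟩
      · exact Or.inl h2
      · exact Or.inr ⟨h3, h2, projR_of_mem h3, projR_of_mem h2⟩

theorem projL_adj {S : Set (Coprod A B)}
    (hS : ∀ g ∈ S, g ∈ Set.range (Coprod.inl : A → Coprod A B) ∨
      g ∈ Set.range (Coprod.inr : B → Coprod A B)) (x u w : Coprod A B)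
    (huw : (mulCayley S).Adj u w) :
    projL x u = projL x w ∨ (u ∈ cosetL x ∧ w ∈ cosetL x ∧ projL x u = u ∧ projL x w = w) := by
  rw [mulCayley_adj'] at huw
  obtain ⟨_, g, hg, h1⟩ := huw
  rcases hS g hg with ⟨s, rfl⟩ | ⟨s, rfl⟩
  · rcases h1 with rfl | rfl
    · rcases projL_mul_inl x u s with h2 | ⟨h2, h3⟩
      · exact Or.inl h2.symm
      · exact Or.inr ⟨h2, h3, projL_of_mem h2, projL_of_mem h3⟩
    · rcases projL_mul_inl x w s with h2 | ⟨h2, h3⟩
      · exact Or.inl h2
      · exact Or.inr ⟨h3, h2, projL_of_mem h3, projL_of_mem h2⟩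
  · rcases h1 with rfl | rfl
    · left; rw [projL_mul_inr]
    · left; rw [projL_mul_inr]

/-- In a connected-through-`T` situation, a vertex of a right coset has a `T`-neighbour in it. -/
theorem exists_adj_cosetR {S : Set (Coprod A B)}
    (hS : ∀ g ∈ S, g ∈ Set.range (Coprod.inl : A → Coprod A B) ∨
      g ∈ Set.range (Coprod.inr : B → Coprod A B)) {T : SimpleGraph (Coprod A B)}
    (hT : T ≤ mulCayley S) {x w : Coprod A B} (hw : w ∈ cosetR x) (hne : x ≠ w)
    (hr : T.Reachable x w) : ∃ y, T.Adj x y ∧ y ∈ cosetR x := by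
  have hx : x ∈ cosetR x := ⟨1, by simp⟩
  have := reachable_inside hT (cosetR x) (projR x) (projR_adj hS x) hr
  rw [projR_of_mem hx, projR_of_mem hw] at this
  obtain ⟨y, hy⟩ := exists_adj_of_reachable_ne this hne
  exact ⟨y, hy.1, hy.2.2⟩

theorem exists_adj_cosetL {S : Set (Coprod A B)}
    (hS : ∀ g ∈ S, g ∈ Set.range (Coprod.inl : A → Coprod A B) ∨
      g ∈ Set.range (Coprod.inr : B → Coprod A B)) {T : SimpleGraph (Coprod A B)}
    (hT : T ≤ mulCayley S) {x w : Coprod A B} (hw : w ∈ cosetL x) (hne : x ≠ w)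
    (hr : T.Reachable x w) : ∃ y, T.Adj x y ∧ y ∈ cosetL x := by
  have hx : x ∈ cosetL x := ⟨1, by simp⟩
  have := reachable_inside hT (cosetL x) (projL x) (projL_adj hS x) hr
  rw [projL_of_mem hx, projL_of_mem hw] at this
  obtain ⟨y, hy⟩ := exists_adj_of_reachable_ne this hne
  exact ⟨y, hy.1, hy.2.2⟩

end

end Vale.Agent.P143
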