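import Vale.Agent.Lib.P143.TriSys

/-!
# P143: counting spanning trees by their missing triangle edges
-/

open SimpleGraph

namespace Vale.Agent.P143

variable {V : Type*}

/-- No two elements of `M` lie in the same triangle. -/
def Sep (ρ : V → V) (M : Finset V) : Prop :=
  ∀ v ∈ M, ρ v ∉ M ∧ ρ (ρ v) ∉ M

/-- `M` picks exactly one vertex in each triangle of `W`. -/
def IsTransversal (ρ : V → V) (W M : Finset V) : Prop :=
  M ⊆ W ∧ Sep ρ M ∧ ∀ w ∈ W, w ∈ M ∨ ρ w ∈ M ∨ ρ (ρ w) ∈ M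

open Classical in
/-- The finite family of all transversals of `W`. -/
noncomputable def transversals (ρ : V → V) (W : Finset V) : Finset (Finset V) :=
  W.powerset.filter (IsTransversal ρ W)

theorem mem_transversals {ρ : V → V} {W M : Finset V} :
    M ∈ transversals ρ W ↔ IsTransversal ρ W M := by
  classical
  simp only [transversals, Finset.mem_filter, Finset.mem_powerset]
  exact ⟨fun h => h.2, fun h => ⟨h.1, h⟩⟩

/-- The configuration in the window `K` determined by the set `M` of apexes. -/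
def confOf (G : SimpleGraph V) (ρ : V → V) (K : Finset (Sym2 V)) (M : Finset V) : Set (Sym2 V) :=
  {e | e ∈ K ∧ e ∈ G.edgeSet ∧ ∀ v ∈ M, e ≠ opp ρ v}

theorem Sep.mono {ρ : V → V} {M M' : Finset V} (h : Sep ρ M) (hs : M' ⊆ M) : Sep ρ M' :=
  fun v hv => ⟨fun h1 => (h v (hs hv)).1 (hs h1), fun h1 => (h v (hs hv)).2 (hs h1)⟩

theorem ncard_biUnion_finset {α ι : Type*} (t : Finset ι) (s : ι → Set α)
    (hs : ∀ i ∈ t, (s i).Finite) (hd : (t : Set ι).PairwiseDisjoint s) :
    (⋃ i ∈ t, s i).ncard = ∑ i ∈ t, (s i).ncard := by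
  have := Set.Finite.ncard_biUnion (t := (t : Set ι)) t.finite_toSet (s := s)
    (fun i hi => hs i hi) hd
  rw [finsum_mem_coe_finset] at this
  simpa using this

namespace TriSys

variable {G : SimpleGraph V} {ρ : V → V} (h : TriSys G ρ)
include h

theorem card_pattern (H : G.Subgraph) (hfin : H.verts.Finite) (M : Finset V) (hsep : Sep ρ M)
    (hM : ∀ v ∈ M, TriIn H ρ v) :
    3 ^ M.card * {T | IsSpanningTree H T ∧ ∀ v ∈ M, opp ρ v ∉ T.edgeSet}.ncard =
      {T | IsSpanningTree H T}.ncard := by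
  classical
  induction M using Finset.induction_on with
  | empty => simp
  | insert u M' hu ih =>
    have hsep' : Sep ρ M' := hsep.mono (Finset.subset_insert _ _)
    have ih' := ih hsep' (fun v hv => hM v (Finset.mem_insert_of_mem hv))
    have hstep := h.card_step H hfin (hM u (Finset.mem_insert_self _ _))
      (fun T => ∀ v ∈ M', opp ρ v ∉ T.edgeSet) (by
        intro T T' hag hq v hv
        have hne : opp ρ v ∉ triEdges ρ u := by
          simp only [triEdges, Set.mem_insert_iff, Set.mem_singleton_iff, not_or]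
          have hu' := hsep u (Finset.mem_insert_self _ _)
          refine ⟨fun he => ?_, fun he => ?_, fun he => ?_⟩
          · exact hu (h.opp_inj he ▸ hv)
          · exact hu'.1 (Finset.mem_insert_of_mem (h.opp_inj he ▸ hv))
          · exact hu'.2 (Finset.mem_insert_of_mem (h.opp_inj he ▸ hv))
        rw [← hag _ hne]
        exact hq v hv)
    have hset : {T | IsSpanningTree H T ∧ ∀ v ∈ insert u M', opp ρ v ∉ T.edgeSet} =
        {T | IsSpanningTree H T ∧ (∀ v ∈ M', opp ρ v ∉ T.edgeSet) ∧ opp ρ u ∉ T.edgeSet} := by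
      ext T
      simp only [Set.mem_ofPred_eq, Finset.mem_insert, forall_eq_or_imp]
      tauto
    rw [hset, Finset.card_insert_of_notMem hu, pow_succ, mul_assoc, hstep, ih']

theorem edge_cases {x y : V} (hxy : G.Adj x y) :
    (∃ w, s(x, y) = opp ρ w) ∨ (y ≠ ρ x ∧ x ≠ ρ y) := by
  by_cases h1 : y = ρ x
  · left
    refine ⟨ρ (ρ x), ?_⟩
    rw [h.opp_rho2, h1]
  by_cases h2 : x = ρ y
  · left
    refine ⟨ρ (ρ y), ?_⟩
    rw [h.opp_rho2, h2]
    exact Sym2.eq_swap
  · exact Or.inr ⟨h1, h2⟩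

theorem ust_config {H : G.Subgraph} {T : SimpleGraph V} (hT : IsSpanningTree H T)
    {K : Finset (Sym2 V)} {W M : Finset V}
    (hKW : ∀ v, opp ρ v ∈ K → v ∈ W) (hHW : ∀ v ∈ W, TriIn H ρ v)
    (hHK : ∀ e ∈ K, e ∈ G.edgeSet → e ∈ H.edgeSet) (hM : IsTransversal ρ W M)
    (hTM : ∀ v ∈ M, opp ρ v ∉ T.edgeSet) : T.edgeSet ∩ ↑K = confOf G ρ K M := by
  ext e
  simp only [confOf, Set.mem_inter_iff, Finset.mem_coe, Set.mem_ofPred_eq]
  constructor
  · rintro ⟨he, heK⟩
    refine ⟨heK, edgeSet_mono (h.le_G hT) he, fun v hv hev => hTM v hv (hev ▸ he)⟩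
  · rintro ⟨heK, heG, hne⟩
    refine ⟨?_, heK⟩
    have heH := hHK e heK heG
    induction e using Sym2.ind with
    | _ x y =>
      have hxy : G.Adj x y := heG
      have hHxy : H.Adj x y := heH
      rcases h.edge_cases hxy with ⟨w, hw⟩ | ⟨h1, h2⟩
      · rw [hw] at heK hne ⊢
        have hwW := hKW w heK
        rcases hM.2.2 w hwW with hm | hm | hm
        · exact absurd rfl (hne w hm)
        · have := (h.others_of_missing hT (hHW _ (hM.1 hm)) (hTM _ hm)).2
          rwa [h.cube] at this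
        · have := (h.others_of_missing hT (hHW _ (hM.1 hm)) (hTM _ hm)).1
          rwa [h.cube] at this
      · exact h.bridge x y hxy h1 h2 T (h.le_G hT)
          (hT.2.2 _ (H.edge_vert hHxy) _ (H.edge_vert hHxy.symm))

theorem exists_spanningTree (H : G.Subgraph) (hc : H.Connected) : ∃ T, IsSpanningTree H T := by
  obtain ⟨F, hF, hac, hre⟩ := H.spanningCoe.exists_isAcyclic_reachable_eq_le
  refine ⟨F, hF, hac, fun u hu v hv => ?_⟩
  rw [hre]
  have := hc.coe.preconnected ⟨u, hu⟩ ⟨v, hv⟩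
  let f : H.coe →g H.spanningCoe := ⟨Subtype.val, fun {a b} hab => hab⟩
  exact this.map f

theorem transversal_unique {H : G.Subgraph} {T : SimpleGraph V} (hT : IsSpanningTree H T)
    {W M M' : Finset V} (hHW : ∀ v ∈ W, TriIn H ρ v) (hM : IsTransversal ρ W M)
    (hM' : IsTransversal ρ W M') (hTM : ∀ v ∈ M, opp ρ v ∉ T.edgeSet)
    (hTM' : ∀ v ∈ M', opp ρ v ∉ T.edgeSet) : M ⊆ M' := by
  intro v hv
  have hvW := hM.1 hv
  have ho := h.others_of_missing hT (hHW v hvW) (hTM v hv)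
  rcases hM'.2.2 v hvW with h1 | h1 | h1
  · exact h1
  · exact absurd ho.1 (hTM' _ h1)
  · exact absurd ho.2 (hTM' _ h1)

theorem exists_transversal {H : G.Subgraph} {T : SimpleGraph V} (hT : IsSpanningTree H T)
    {W : Finset V} (hHW : ∀ v ∈ W, TriIn H ρ v) (hWρ : ∀ w ∈ W, ρ w ∈ W) :
    ∃ M, IsTransversal ρ W M ∧ ∀ v ∈ M, opp ρ v ∉ T.edgeSet := by
  classical
  refine ⟨W.filter (fun v => opp ρ v ∉ T.edgeSet), ⟨Finset.filter_subset _ _, ?_, ?_⟩, ?_⟩
  · intro v hv
    rw [Finset.mem_filter] at hv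
    have ho := h.others_of_missing hT (hHW v hv.1) hv.2
    simp only [Finset.mem_filter, not_and, not_not]
    exact ⟨fun _ => ho.1, fun _ => ho.2⟩
  · intro w hw
    simp only [Finset.mem_filter]
    rcases h.exists_missing hT w with h1 | h1 | h1
    · exact Or.inl ⟨hw, h1⟩
    · exact Or.inr (Or.inl ⟨hWρ w hw, h1⟩)
    · exact Or.inr (Or.inr ⟨hWρ _ (hWρ w hw), h1⟩)
  · intro v hv
    exact (Finset.mem_filter.mp hv).2

theorem ustProb_eq (H : G.Subgraph) (hfin : H.verts.Finite) (hc : H.Connected)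
    (K A : Finset (Sym2 V)) (W : Finset V)
    (hKW : ∀ v, opp ρ v ∈ K → v ∈ W) (hWρ : ∀ w ∈ W, ρ w ∈ W) (hHW : ∀ v ∈ W, TriIn H ρ v)
    (hHK : ∀ e ∈ K, e ∈ G.edgeSet → e ∈ H.edgeSet) :
    ustProb H (cyl K A) =
      ∑ M ∈ transversals ρ W, if confOf G ρ K M = ↑A then ((3 : ℝ) ^ M.card)⁻¹ else 0 := by
  classical
  have hfinT := h.finite_spanningTrees H hfin
  have hN : 0 < {T | IsSpanningTree H T}.ncard := by
    rw [Set.ncard_pos hfinT]
    exact h.exists_spanningTree H hc
  set S : Finset V → Set (SimpleGraph V) := fun M =>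
    {T | IsSpanningTree H T ∧ (∀ v ∈ M, opp ρ v ∉ T.edgeSet) ∧ T.edgeSet ∈ cyl K A} with hS
  have hU : {T | IsSpanningTree H T ∧ T.edgeSet ∈ cyl K A} = ⋃ M ∈ transversals ρ W, S M := by
    ext T
    simp only [hS, Set.mem_iUnion, Set.mem_ofPred_eq, exists_prop, mem_transversals]
    constructor
    · rintro ⟨hT, hA⟩
      obtain ⟨M, hM, hTM⟩ := h.exists_transversal hT hHW hWρ
      exact ⟨M, hM, hT, hTM, hA⟩
    · rintro ⟨M, _, hT, _, hA⟩
      exact ⟨hT, hA⟩
  have hSfin : ∀ M ∈ transversals ρ W, (S M).Finite := fun M _ =>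
    hfinT.subset fun T hT => hT.1
  have hdisj : ((transversals ρ W : Finset (Finset V)) : Set (Finset V)).PairwiseDisjoint S := by
    intro M hM M' hM' hne
    rw [Function.onFun, Set.disjoint_left]
    rintro T ⟨hT, hTM, _⟩ ⟨_, hTM', _⟩
    apply hne
    have hM1 := mem_transversals.mp hM
    have hM2 := mem_transversals.mp hM'
    exact Finset.Subset.antisymm (h.transversal_unique hT hHW hM1 hM2 hTM hTM')
      (h.transversal_unique hT hHW hM2 hM1 hTM' hTM)
  unfold ustProb
  rw [hU, ncard_biUnion_finset _ _ hSfin hdisj, Nat.cast_sum, Finset.sum_div]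
  apply Finset.sum_congr rfl
  intro M hM
  have hM1 := mem_transversals.mp hM
  have hcard := h.card_pattern H hfin M hM1.2.1 (fun v hv => hHW v (hM1.1 hv))
  split_ifs with hconf
  · have : S M = {T | IsSpanningTree H T ∧ ∀ v ∈ M, opp ρ v ∉ T.edgeSet} := by
      ext T
      simp only [hS, Set.mem_ofPred_eq]
      constructor
      · rintro ⟨hT, hTM, _⟩
        exact ⟨hT, hTM⟩
      · rintro ⟨hT, hTM⟩
        refine ⟨hT, hTM, ?_⟩
        show T.edgeSet ∩ ↑K = ↑A
        rw [h.ust_config hT hKW hHW hHK hM1 hTM, hconf]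
    rw [this, ← hcard]
    have h3 : ((3 : ℝ) ^ M.card) ≠ 0 := by positivity
    have hpos : ({T | IsSpanningTree H T ∧ ∀ v ∈ M, opp ρ v ∉ T.edgeSet}.ncard : ℝ) ≠ 0 := by
      intro h0
      have h0' : {T | IsSpanningTree H T ∧ ∀ v ∈ M, opp ρ v ∉ T.edgeSet}.ncard = 0 := by
        exact_mod_cast h0
      rw [h0'] at hcard
      omega
    push_cast
    field_simp
  · have : S M = ∅ := by
      ext T
      simp only [hS, Set.mem_ofPred_eq, Set.mem_empty_iff_false, iff_false]
      rintro ⟨hT, hTM, hA⟩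
      apply hconf
      rw [← h.ust_config hT hKW hHW hHK hM1 hTM]
      exact hA
    rw [this]
    simp

end TriSys

end Vale.Agent.P143
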