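import Vale.Agent.Lib.P143.Meas

/-!
# P143: the factor map and its law on cylinder events
-/

open MeasureTheory ProbabilityTheory

namespace Vale.Agent.P143


variable {V : Type*}

/-- All vertices of `M` are apexes. -/
def apexAll (ρ : V → V) (M : Finset V) : Set (V → unitInterval) :=
  {U | ∀ v ∈ M, U ∈ apexEv ρ v}

theorem measurableSet_apexAll (ρ : V → V) (M : Finset V) : MeasurableSet (apexAll ρ M) := by
  have : apexAll ρ M = ⋂ v ∈ M, apexEv ρ v := by
    ext U; simp [apexAll]
  rw [this]
  exact Finset.measurableSet_biInter _ fun v _ => measurableSet_apexEv ρ v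

open Classical in
/-- The vertices of the triangles of the elements of `M`. -/
noncomputable def triVerts (ρ : V → V) (M : Finset V) : Finset V :=
  M ∪ M.image ρ ∪ M.image (fun v => ρ (ρ v))

theorem dependsOn_apexAll (ρ : V → V) (M : Finset V) : DependsOn' (apexAll ρ M) (triVerts ρ M) := by
  classical
  intro a a' haa
  have h0 : ∀ v ∈ M, a v = a' v := fun v hv => haa v (by simp [triVerts, hv])
  have h1 : ∀ v ∈ M, a (ρ v) = a' (ρ v) := fun v hv => haa _ (by
    simp only [triVerts, Finset.mem_union, Finset.mem_image]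
    exact Or.inl (Or.inr ⟨v, hv, rfl⟩))
  have h2 : ∀ v ∈ M, a (ρ (ρ v)) = a' (ρ (ρ v)) := fun v hv => haa _ (by
    simp only [triVerts, Finset.mem_union, Finset.mem_image]
    exact Or.inr ⟨v, hv, rfl⟩)
  simp only [apexAll, apexEv, Set.mem_ofPred_eq]
  constructor
  · intro hh v hv
    rw [← h0 v hv, ← h1 v hv, ← h2 v hv]; exact hh v hv
  · intro hh v hv
    rw [h0 v hv, h1 v hv, h2 v hv]; exact hh v hv

/-- The factor map: keep all edges of `G` except the edge opposite to the vertex carrying the
strictly largest label in each triangle. -/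
def triFactor (G : SimpleGraph V) (ρ : V → V) (U : V → unitInterval) : Set (Sym2 V) :=
  {e | e ∈ G.edgeSet ∧ ∀ v, e = opp ρ v → U ∉ apexEv ρ v}

theorem measurableSet_cyl (K A : Finset (Sym2 V)) : MeasurableSet (cyl K A) := by
  classical
  by_cases hAK : A ⊆ K
  · have : cyl K A = ⋂ e ∈ K, {ω : Set (Sym2 V) | e ∈ ω ↔ e ∈ A} := by
      ext ω
      simp only [cyl, Set.mem_ofPred_eq, Set.mem_iInter, Set.ext_iff, Set.mem_inter_iff,
        Finset.mem_coe]
      constructor
      · intro hh e he
        have := hh e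
        tauto
      · intro hh e
        by_cases he : e ∈ K
        · have := hh e he
          tauto
        · have : e ∉ A := fun h => he (hAK h)
          tauto
    rw [this]
    refine Finset.measurableSet_biInter _ fun e _ => ?_
    by_cases heA : e ∈ A
    · simp only [heA, iff_true]
      exact measurableSet_setOfPred.mpr (measurable_set_mem e)
    · simp only [heA, iff_false]
      exact (measurableSet_setOfPred.mpr (measurable_set_mem e)).compl
  · have : cyl K A = ∅ := by
      ext ω
      simp only [cyl, Set.mem_ofPred_eq, Set.mem_empty_iff_false, iff_false]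
      intro hh
      apply hAK
      intro e he
      have : e ∈ (↑A : Set (Sym2 V)) := he
      rw [← hh] at this
      exact this.2
    rw [this]
    exact MeasurableSet.empty

namespace TriSys

variable {G : SimpleGraph V} {ρ : V → V} (h : TriSys G ρ)
include h

theorem mem_triVerts_iff (M : Finset V) (x : V) :
    x ∈ triVerts ρ M ↔ x ∈ M ∨ ρ x ∈ M ∨ ρ (ρ x) ∈ M := by
  classical
  simp only [triVerts, Finset.mem_union, Finset.mem_image]
  constructor
  · rintro ((h1 | ⟨v, hv, rfl⟩) | ⟨v, hv, rfl⟩)
    · exact Or.inl h1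
    · right; right; rw [h.cube]; exact hv
    · right; left; rw [h.cube]; exact hv
  · rintro (h1 | h1 | h1)
    · exact Or.inl (Or.inl h1)
    · exact Or.inr ⟨_, h1, h.cube x⟩
    · exact Or.inl (Or.inr ⟨_, h1, h.cube x⟩)

theorem measure_apexAll (M : Finset V) (hsep : Sep ρ M) :
    iidLaw V (apexAll ρ M) = (3⁻¹ : ENNReal) ^ M.card := by
  classical
  induction M using Finset.induction_on with
  | empty => simp [apexAll]
  | insert u M' hu ih =>
    have hsep' : Sep ρ M' := hsep.mono (Finset.subset_insert _ _)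
    have hset : apexAll ρ (insert u M') = apexAll ρ {u} ∩ apexAll ρ M' := by
      ext U
      simp [apexAll]
    have hone : apexAll ρ {u} = apexEv ρ u := by
      ext U; simp [apexAll]
    have hdisj : Disjoint (triVerts ρ {u}) (triVerts ρ M') := by
      rw [Finset.disjoint_left]
      intro x hx hx'
      rw [h.mem_triVerts_iff] at hx hx'
      simp only [Finset.mem_singleton] at hx
      have hu' := hsep u (Finset.mem_insert_self _ _)
      have n1 : ρ u ∉ M' := fun hh => hu'.1 (Finset.mem_insert_of_mem hh)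
      have n2 : ρ (ρ u) ∉ M' := fun hh => hu'.2 (Finset.mem_insert_of_mem hh)
      rcases hx with rfl | hx | hx
      · rcases hx' with h1 | h1 | h1
        · exact hu h1
        · exact n1 h1
        · exact n2 h1
      · -- ρ x = u
        subst hx
        rcases hx' with h1 | h1 | h1
        · apply n2; rw [h.cube]; exact h1
        · exact hu h1
        · exact n1 h1
      · subst hx
        rcases hx' with h1 | h1 | h1
        · apply n1; rw [h.cube]; exact h1
        · apply n2; rw [h.cube]; exact h1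
        · exact hu h1
    rw [hset, measure_inter_of_dependsOn (dependsOn_apexAll ρ {u}) (dependsOn_apexAll ρ M')
      (measurableSet_apexAll _ _) (measurableSet_apexAll _ _) hdisj, ih hsep', hone,
      h.measure_apexEv, Finset.card_insert_of_notMem hu, pow_succ, mul_comm]

theorem measurable_triFactor : Measurable (triFactor G ρ) := by
  rw [measurable_set_iff]
  intro e
  rw [← measurableSet_setOfPred]
  by_cases hv : ∃ v0, e = opp ρ v0
  · obtain ⟨v0, hv0⟩ := hv
    have : {U | e ∈ triFactor G ρ U} = {_U | e ∈ G.edgeSet} ∩ (apexEv ρ v0)ᶜ := by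
      ext U
      simp only [triFactor, Set.mem_ofPred_eq, Set.mem_inter_iff, Set.mem_compl_iff]
      constructor
      · rintro ⟨h1, h2⟩
        exact ⟨h1, h2 v0 hv0⟩
      · rintro ⟨h1, h2⟩
        refine ⟨h1, fun v hv => ?_⟩
        have : v = v0 := h.opp_inj (hv.symm.trans hv0)
        rw [this]; exact h2
    rw [this]
    exact (MeasurableSet.const _).inter (measurableSet_apexEv ρ v0).compl
  · have : {U | e ∈ triFactor G ρ U} = {_U | e ∈ G.edgeSet} := by
      ext U
      simp only [triFactor, Set.mem_ofPred_eq]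
      constructor
      · exact fun hh => hh.1
      · exact fun hh => ⟨hh, fun v hv' => absurd ⟨v, hv'⟩ hv⟩
    rw [this]
    exact MeasurableSet.const _

theorem apex_conflict1 {U : V → unitInterval} {v : V} (h1 : U ∈ apexEv ρ v)
    (h2 : U ∈ apexEv ρ (ρ v)) : False := by
  have a := h1.1
  have b := h2.2
  rw [h.cube] at b
  exact lt_asymm a b

theorem apex_conflict2 {U : V → unitInterval} {v : V} (h1 : U ∈ apexEv ρ v)
    (h2 : U ∈ apexEv ρ (ρ (ρ v))) : False := by
  have a := h1.2
  have b := h2.1
  rw [h.cube] at b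
  exact lt_asymm a b

theorem fiid_config {U : V → unitInterval} {K : Finset (Sym2 V)} {W M : Finset V}
    (hKW : ∀ v, opp ρ v ∈ K → v ∈ W) (hM : IsTransversal ρ W M) (hU : U ∈ apexAll ρ M) :
    triFactor G ρ U ∩ ↑K = confOf G ρ K M := by
  ext e
  simp only [triFactor, confOf, Set.mem_inter_iff, Finset.mem_coe, Set.mem_ofPred_eq]
  constructor
  · rintro ⟨⟨h1, h2⟩, h3⟩
    exact ⟨h3, h1, fun v hv hev => h2 v hev (hU v hv)⟩
  · rintro ⟨h1, h2, h3⟩
    refine ⟨⟨h2, fun v hv hap => ?_⟩, h1⟩
    have hvW : v ∈ W := hKW v (hv ▸ h1)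
    rcases hM.2.2 v hvW with hm | hm | hm
    · exact h3 v hm hv
    · exact h.apex_conflict1 hap (hU _ hm)
    · exact h.apex_conflict2 hap (hU _ hm)

theorem apex_cases {U : V → unitInterval} {v : V} (c1 : U v ≠ U (ρ v))
    (c2 : U (ρ v) ≠ U (ρ (ρ v))) (c3 : U (ρ (ρ v)) ≠ U v) :
    U ∈ apexEv ρ v ∨ U ∈ apexEv ρ (ρ v) ∨ U ∈ apexEv ρ (ρ (ρ v)) := by
  simp only [apexEv, Set.mem_ofPred_eq, h.cube]
  rcases lt_trichotomy (U v) (U (ρ v)) with t1 | t1 | t1
  · rcases lt_trichotomy (U (ρ v)) (U (ρ (ρ v))) with t2 | t2 | t2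
    · exact Or.inr (Or.inr ⟨t1.trans t2, t2⟩)
    · exact absurd t2 c2
    · exact Or.inr (Or.inl ⟨t2, t1⟩)
  · exact absurd t1 c1
  · rcases lt_trichotomy (U (ρ (ρ v))) (U v) with t2 | t2 | t2
    · exact Or.inl ⟨t1, t2⟩
    · exact absurd t2 c3
    · exact Or.inr (Or.inr ⟨t2, t1.trans t2⟩)

theorem conull_union (W : Finset V) (hWρ : ∀ w ∈ W, ρ w ∈ W) :
    iidLaw V (⋃ M ∈ transversals ρ W, apexAll ρ M)ᶜ = 0 := by
  classical
  have hsub : (⋃ M ∈ transversals ρ W, apexAll ρ M)ᶜ ⊆ ⋃ w ∈ W, {U | U w = U (ρ w)} := by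
    intro U hU
    by_contra hcon
    apply hU
    simp only [Set.mem_iUnion, Set.mem_ofPred_eq, exists_prop, not_exists, not_and] at hcon
    simp only [Set.mem_iUnion, exists_prop, mem_transversals]
    refine ⟨W.filter (fun v => U ∈ apexEv ρ v), ⟨Finset.filter_subset _ _, ?_, ?_⟩, ?_⟩
    · intro v hv
      rw [Finset.mem_filter] at hv
      simp only [Finset.mem_filter, not_and]
      exact ⟨fun _ h2 => h.apex_conflict1 hv.2 h2, fun _ h2 => h.apex_conflict2 hv.2 h2⟩
    · intro w hw
      simp only [Finset.mem_filter]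
      have c1 := hcon w hw
      have c2 := hcon _ (hWρ w hw)
      have c3 := hcon _ (hWρ _ (hWρ w hw))
      rw [h.cube] at c3
      rcases h.apex_cases c1 c2 c3 with h1 | h1 | h1
      · exact Or.inl ⟨hw, h1⟩
      · exact Or.inr (Or.inl ⟨hWρ w hw, h1⟩)
      · exact Or.inr (Or.inr ⟨hWρ _ (hWρ w hw), h1⟩)
    · intro v hv
      exact (Finset.mem_filter.mp hv).2
  apply measure_mono_null hsub
  refine (measure_biUnion_null_iff W.countable_toSet).mpr ?_
  intro w _
  exact tie_null (h.ne w).symm

end TriSys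


end Vale.Agent.P143
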