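import Vale.Agent.Lib.P143.ProdF
import Vale.Agent.Lib.P143.Factor

/-!
# P143: a cylinder event decomposes over the blocks
-/

open SimpleGraph MeasureTheory

namespace Vale.Agent.P143

theorem mem_cyl_iff {V : Type*} (K P : Finset (Sym2 V)) (ω : Set (Sym2 V)) :
    ω ∈ cyl K P ↔ P ⊆ K ∧ ∀ e ∈ K, (e ∈ ω ↔ e ∈ P) := by
  simp only [cyl, Set.mem_ofPred_eq, Set.ext_iff, Set.mem_inter_iff, Finset.mem_coe]
  constructor
  · intro h
    refine ⟨fun e he => ((h e).mpr he).2, fun e he => ?_⟩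
    have := h e
    tauto
  · rintro ⟨h1, h2⟩ e
    by_cases he : e ∈ K
    · have := h2 e he
      tauto
    · have : e ∉ P := fun h => he (h1 h)
      tauto

theorem mem_cyl_preimage {V V₀ : Type*} (m : Sym2 V₀ → Sym2 V) (hm : Function.Injective m)
    (K P : Finset (Sym2 V)) (hPK : P ⊆ K) (ω : Set (Sym2 V)) :
    m ⁻¹' ω ∈ cyl (K.preimage m hm.injOn) (P.preimage m hm.injOn) ↔
      ∀ e₀, m e₀ ∈ K → (m e₀ ∈ ω ↔ m e₀ ∈ P) := by
  rw [mem_cyl_iff]
  simp only [Finset.mem_preimage, Set.mem_preimage]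
  constructor
  · exact fun h => h.2
  · intro h
    refine ⟨fun e he => ?_, h⟩
    rw [Finset.mem_preimage] at he ⊢
    exact hPK he

theorem edgeSet_inB {V V₀ : Type*} (j : V₀ → V) (T : SimpleGraph V) :
    (inB j T).edgeSet = Sym2.map j ⁻¹' T.edgeSet := by
  ext e
  induction e using Sym2.ind with
  | _ x y => rfl

variable {Γ A : Type*} [Group Γ] [Group A]

/-- Representatives of the left cosets of the image of `ι`. -/
noncomputable def rep (ι : A →* Γ) (c : Γ ⧸ ι.range) : Γ := Quotient.out c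

theorem rep_ne (ι : A →* Γ) {c c' : Γ ⧸ ι.range} (h : c ≠ c') :
    (rep ι c)⁻¹ * rep ι c' ∉ Set.range ι := by
  intro hh
  apply h
  have h1 : (rep ι c)⁻¹ * rep ι c' ∈ ι.range := hh
  have h2 := QuotientGroup.eq.mpr h1
  rwa [rep, rep, QuotientGroup.out_eq', QuotientGroup.out_eq'] at h2

theorem exists_rep (ι : A →* Γ) (x : Γ) : ∃ c g, x = rep ι c * ι g := by
  refine ⟨(x : Γ ⧸ ι.range), ?_⟩
  have h1 : ((rep ι (x : Γ ⧸ ι.range) : Γ) : Γ ⧸ ι.range) = (x : Γ ⧸ ι.range) :=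
    QuotientGroup.out_eq' _
  obtain ⟨g, hg⟩ := QuotientGroup.eq.mp h1
  exact ⟨g, by rw [hg]; group⟩

/-- The map on edges given by the block of the coset `c`. -/
noncomputable def emap (ι : A →* Γ) (c : Γ ⧸ ι.range) : Sym2 A → Sym2 Γ :=
  Sym2.map (fun g => rep ι c * ι g)

theorem emap_unique (ι : A →* Γ) {c c' : Γ ⧸ ι.range} {e₀ e₀' : Sym2 A}
    (h : emap ι c e₀ = emap ι c' e₀') : c = c' := by
  by_contra hne
  apply rep_ne ι hne
  induction e₀ using Sym2.ind with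
  | _ g g' =>
    induction e₀' using Sym2.ind with
    | _ a a' =>
      simp only [emap, Sym2.map_mk] at h
      rcases Sym2.eq_iff.mp h with ⟨h4, _⟩ | ⟨h4, _⟩
      · refine ⟨g * a⁻¹, ?_⟩
        rw [map_mul, map_inv, eq_inv_mul_iff_mul_eq, ← mul_assoc, h4]; group
      · refine ⟨g * a'⁻¹, ?_⟩
        rw [map_mul, map_inv, eq_inv_mul_iff_mul_eq, ← mul_assoc, h4]; group

theorem exists_cover (ι : A →* Γ) (K : Finset (Sym2 Γ)) :
    ∃ J : Finset (Γ ⧸ ι.range), ∀ e ∈ K, ∀ c e₀, e = emap ι c e₀ → c ∈ J := by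
  have hfin : {c : Γ ⧸ ι.range | ∃ e ∈ K, ∃ e₀, e = emap ι c e₀}.Finite := by
    have : {c : Γ ⧸ ι.range | ∃ e ∈ K, ∃ e₀, e = emap ι c e₀} =
        ⋃ e ∈ (K : Set (Sym2 Γ)), {c | ∃ e₀, e = emap ι c e₀} := by
      ext c; simp
    rw [this]
    refine Set.Finite.biUnion K.finite_toSet fun e _ => ?_
    apply Set.Subsingleton.finite
    rintro c ⟨e₀, h⟩ c' ⟨e₀', h'⟩
    exact emap_unique ι (h.symm.trans h')
  refine ⟨hfin.toFinset, fun e he c e₀ h => ?_⟩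
  rw [Set.Finite.mem_toFinset]
  exact ⟨e, he, e₀, h⟩

variable {B : Type*} [Group B]

namespace TwoFactors

variable {ιA : A →* Γ} {hdA : Γ → A} {ιB : B →* Γ} {hdB : Γ → B} {S : Set Γ}
  {SA : Set A} {SB : Set B} (t : TwoFactors ιA hdA ιB hdB S SA SB)
include t

theorem edge_cover {e : Sym2 Γ} (he : e ∈ (mulCayley S).edgeSet) :
    (∃ c e₀, e = emap ιA c e₀) ∨ (∃ d e₀, e = emap ιB d e₀) := by
  induction e using Sym2.ind with
  | _ u v =>
    have huv : (mulCayley S).Adj u v := he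
    rw [mulCayley_adj'] at huv
    have key : ∀ (u : Γ) (s : Γ), s ∈ S → (∃ c e₀, s(u, u * s) = emap ιA c e₀) ∨
        (∃ d e₀, s(u, u * s) = emap ιB d e₀) := by
      intro u s hs
      rcases t.cover s hs with ⟨a, rfl⟩ | ⟨b, rfl⟩
      · left
        obtain ⟨c, g, rfl⟩ := exists_rep ιA u
        exact ⟨c, s(g, g * a), by simp [emap, mul_assoc]⟩
      · right
        obtain ⟨c, g, rfl⟩ := exists_rep ιB u
        exact ⟨c, s(g, g * b), by simp [emap, mul_assoc]⟩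
    obtain ⟨_, s, hs, h1 | h1⟩ := huv
    · subst h1
      exact key u s hs
    · subst h1
      rw [Sym2.eq_swap]
      exact key v s hs

theorem emapA_inj (c : Γ ⧸ ιA.range) : Function.Injective (emap ιA c) := t.fA.map_inj _

theorem emapB_inj (d : Γ ⧸ ιB.range) : Function.Injective (emap ιB d) := t.fB.map_inj _

/-- The decomposition of a cylinder event. -/
theorem mem_cyl_decomp {K P : Finset (Sym2 Γ)} (hPK : P ⊆ K)
    (hC : ∀ e ∈ K, e ∉ (mulCayley S).edgeSet → e ∉ P)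
    {JA : Finset (Γ ⧸ ιA.range)} (hJA : ∀ e ∈ K, ∀ c e₀, e = emap ιA c e₀ → c ∈ JA)
    {JB : Finset (Γ ⧸ ιB.range)} (hJB : ∀ e ∈ K, ∀ c e₀, e = emap ιB c e₀ → c ∈ JB)
    {ω : Set (Sym2 Γ)} (hω : ω ⊆ (mulCayley S).edgeSet) :
    ω ∈ cyl K P ↔
      (∀ c ∈ JA, emap ιA c ⁻¹' ω ∈ cyl (K.preimage _ (t.emapA_inj c).injOn)
        (P.preimage _ (t.emapA_inj c).injOn)) ∧
      (∀ d ∈ JB, emap ιB d ⁻¹' ω ∈ cyl (K.preimage _ (t.emapB_inj d).injOn)
        (P.preimage _ (t.emapB_inj d).injOn)) := by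
  have hA := fun c => mem_cyl_preimage _ (t.emapA_inj c) K P hPK ω
  have hB := fun d => mem_cyl_preimage _ (t.emapB_inj d) K P hPK ω
  simp only [hA, hB]
  rw [mem_cyl_iff]
  constructor
  · rintro ⟨_, h⟩
    exact ⟨fun c _ e₀ he => h _ he, fun d _ e₀ he => h _ he⟩
  · rintro ⟨h1, h2⟩
    refine ⟨hPK, fun e he => ?_⟩
    by_cases hE : e ∈ (mulCayley S).edgeSet
    · rcases t.edge_cover hE with ⟨c, e₀, rfl⟩ | ⟨d, e₀, rfl⟩
      · exact h1 c (hJA _ he c e₀ rfl) e₀ he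
      · exact h2 d (hJB _ he d e₀ rfl) e₀ he
    · have a1 : e ∉ ω := fun h => hE (hω h)
      have a2 := hC e he hE
      tauto

/-- If the compatibility condition fails, the cylinder contains no set of edges. -/
theorem not_mem_cyl {K P : Finset (Sym2 Γ)}
    (hC : ¬ (P ⊆ K ∧ ∀ e ∈ K, e ∉ (mulCayley S).edgeSet → e ∉ P))
    {ω : Set (Sym2 Γ)} (hω : ω ⊆ (mulCayley S).edgeSet) : ω ∉ cyl K P := by
  intro h
  rw [mem_cyl_iff] at h
  apply hC
  refine ⟨h.1, fun e he hE hP => hE (hω ((h.2 e he).mpr hP))⟩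

end TwoFactors

end Vale.Agent.P143
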