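import Mathlib

/-!
# P143: definitions (uniform spanning trees, free uniform spanning forest, factors of IID)
-/

namespace Vale.Agent.P143

open MeasureTheory Filter Topology

variable {V : Type*}

/-- `T` (a graph on the same vertex type, that is, an edge set) is a spanning tree of the
subgraph `H`: its edges are edges of `H`, it has no cycle, and it joins any two vertices of `H`. -/
def IsSpanningTree {G : SimpleGraph V} (H : G.Subgraph) (T : SimpleGraph V) : Prop :=
  T ≤ H.spanningCoe ∧ T.IsAcyclic ∧ ∀ u ∈ H.verts, ∀ v ∈ H.verts, T.Reachable u v

/-- The probability that the edge set of the uniform spanning tree of `H` lies in `E`. -/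
noncomputable def ustProb {G : SimpleGraph V} (H : G.Subgraph) (E : Set (Set (Sym2 V))) : ℝ :=
  ({T | IsSpanningTree H T ∧ T.edgeSet ∈ E}.ncard : ℝ) / ({T | IsSpanningTree H T}.ncard : ℝ)

/-- An exhaustion of `G` by an increasing sequence of finite connected subgraphs with union `G`. -/
structure IsExhaustion (G : SimpleGraph V) (H : ℕ → G.Subgraph) : Prop where
  finite : ∀ n, (H n).verts.Finite
  connected : ∀ n, (H n).Connected
  mono : Monotone H
  union : ⨆ n, H n = ⊤

/-- The cylinder event: the configuration restricted to the finite window `K` equals `A`. -/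
def cyl (K A : Finset (Sym2 V)) : Set (Set (Sym2 V)) := {ω | ω ∩ ↑K = ↑A}

/-- `μ` is the law of the free uniform spanning forest of `G`: it is a probability measure on edge
configurations and, along every exhaustion, the uniform spanning tree laws converge to `μ` on all
cylinder events (weak convergence on the space of edge configurations). -/
def IsFUSF (G : SimpleGraph V) (μ : Measure (Set (Sym2 V))) : Prop :=
  IsProbabilityMeasure μ ∧
  ∀ H : ℕ → G.Subgraph, IsExhaustion G H → ∀ K A : Finset (Sym2 V),
    Tendsto (fun n => ustProb (H n) (cyl K A)) atTop (𝓝 (μ (cyl K A)).toReal)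

/-- The law of i.i.d. Uniform[0,1] labels on the vertices. -/
noncomputable def iidLaw (V : Type*) : Measure (V → unitInterval) :=
  Measure.infinitePi (fun _ => (volume : Measure unitInterval))

/-- The law `μ` of a random edge set on the vertex set `Γ` is a `Γ`-factor of IID: it is the law
of `Φ U` for a measurable map `Φ` commuting with the left multiplication action of `Γ`. -/
def IsFactorOfIID (Γ : Type*) [Group Γ] (μ : Measure (Set (Sym2 Γ))) : Prop :=
  ∃ Φ : (Γ → unitInterval) → Set (Sym2 Γ), Measurable Φ ∧
    (∀ (γ : Γ) (U : Γ → unitInterval),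
      Φ (fun v => U (γ⁻¹ * v)) = Sym2.map (fun v => γ * v) '' Φ U) ∧
    μ = (iidLaw Γ).map Φ

end Vale.Agent.P143
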