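import Vale.Agent.Lib.P143.BlockExh

/-!
# P143: free factors of a group and the blocks of the Cayley graph
-/

open SimpleGraph

namespace Vale.Agent.P143

/-- `ι : A →* Γ` is a free factor of `Γ` as seen from the generating set `S`: `hd` reads off the
`A`-head of an element, and right multiplication by a generator changes the head only inside the
image of `A`. -/
structure Factor {Γ A : Type*} [Group Γ] [Group A] (ι : A →* Γ) (hd : Γ → A) (S : Set Γ)
    (S₀ : Set A) : Prop where
  hd_mul : ∀ a w, hd (ι a * w) = a * hd w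
  hd_one : hd 1 = 1
  step : ∀ s ∈ S, ∀ w, hd (w * s) = hd w ∨ (w ∈ Set.range ι ∧ s ∈ Set.range ι)
  mem_iff : ∀ a, a ≠ 1 → (ι a ∈ S ↔ a ∈ S₀)

namespace Factor

variable {Γ A : Type*} [Group Γ] [Group A] {ι : A →* Γ} {hd : Γ → A} {S : Set Γ} {S₀ : Set A}
  (f : Factor ι hd S S₀)
include f

theorem hd_ι (a : A) : hd (ι a) = a := by
  have := f.hd_mul a 1
  rwa [mul_one, f.hd_one, mul_one] at this

theorem inj : Function.Injective ι := fun a a' h => by
  have := congrArg hd h
  rwa [f.hd_ι, f.hd_ι] at this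

theorem block (x : Γ) :
    Block (mulCayley S) (mulCayley S₀) (fun g => x * ι g) (fun w => hd (x⁻¹ * w)) where
  rj g := by simp [f.hd_ι]
  adj_iff g g' := by
    rw [mulCayley_adj, mulCayley_adj]
    have e1 : (x * ι g)⁻¹ * (x * ι g') = ι (g⁻¹ * g') := by simp [mul_assoc]
    have e2 : (x * ι g')⁻¹ * (x * ι g) = ι (g'⁻¹ * g) := by simp [mul_assoc]
    rw [e1, e2]
    constructor
    · rintro ⟨hne, h⟩
      have hne' : g ≠ g' := fun hh => hne (by rw [hh])
      refine ⟨hne', ?_⟩
      rw [f.mem_iff _ (by simpa [inv_mul_eq_one] using hne'),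
        f.mem_iff _ (by simpa [inv_mul_eq_one] using hne'.symm)] at h
      exact h
    · rintro ⟨hne, h⟩
      refine ⟨fun hh => hne (f.inj (mul_left_cancel hh)), ?_⟩
      rw [f.mem_iff _ (by simpa [inv_mul_eq_one] using hne),
        f.mem_iff _ (by simpa [inv_mul_eq_one] using hne.symm)]
      exact h
  edge u v huv := by
    have key : ∀ (u : Γ) (s : Γ), s ∈ S → hd (x⁻¹ * u) = hd (x⁻¹ * (u * s)) ∨
        (x * ι (hd (x⁻¹ * u)) = u ∧ x * ι (hd (x⁻¹ * (u * s))) = u * s) := by
      intro u s hs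
      rcases f.step s hs (x⁻¹ * u) with h | ⟨⟨a, ha⟩, ⟨c, hc⟩⟩
      · left; rw [← mul_assoc, h]
      · right
        constructor
        · rw [← ha, f.hd_ι, ha]; group
        · rw [← mul_assoc, ← ha, ← hc, ← map_mul, f.hd_ι, map_mul, ha, hc]; group
    rw [mulCayley_adj'] at huv
    obtain ⟨_, s, hs, h1 | h1⟩ := huv
    · subst h1
      exact key u s hs
    · subst h1
      rcases key v s hs with h | ⟨h2, h3⟩
      · exact Or.inl h.symm
      · exact Or.inr ⟨h3, h2⟩

/-- membership in the coset -/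
theorem proj_eq_iff (x w : Γ) : x * ι (hd (x⁻¹ * w)) = w ↔ x⁻¹ * w ∈ Set.range ι := by
  constructor
  · intro h
    refine ⟨hd (x⁻¹ * w), ?_⟩
    rw [eq_inv_mul_iff_mul_eq]; exact h
  · rintro ⟨a, ha⟩
    rw [← ha, f.hd_ι, ha]; group

/-- two blocks over different cosets share no edge (not even a vertex) -/
theorem edgeDisj_same {x x' : Γ} (h : x⁻¹ * x' ∉ Set.range ι) :
    EdgeDisj (fun g => x * ι g) (fun w => hd (x⁻¹ * w)) (fun g => x' * ι g) := by
  intro g g' _ hh
  apply h
  obtain ⟨a, ha⟩ := (f.proj_eq_iff x (x' * ι g)).mp hh.1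
  refine ⟨a * g⁻¹, ?_⟩
  rw [map_mul, ha, map_inv]; group

/-- blocks of two factors with trivial intersection share no edge -/
theorem edgeDisj_other {B : Type*} [Group B] {ι' : B →* Γ}
    (htriv : ∀ a b, ι a = ι' b → b = 1) (x y : Γ) :
    EdgeDisj (fun g => x * ι g) (fun w => hd (x⁻¹ * w)) (fun g => y * ι' g) := by
  intro k k' hne hh
  obtain ⟨a, ha⟩ := (f.proj_eq_iff x (y * ι' k)).mp hh.1
  obtain ⟨a', ha'⟩ := (f.proj_eq_iff x (y * ι' k')).mp hh.2
  apply hne
  have h1 : ι (a⁻¹ * a') = ι' (k⁻¹ * k') := by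
    rw [map_mul, map_mul, map_inv, map_inv, ha, ha']; group
  have := htriv _ _ h1
  exact (inv_mul_eq_one.mp this)

end Factor

end Vale.Agent.P143
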