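import Vale.Agent.Lib.P143.CoprodInst

/-!
# P143: finite groups (the uniform spanning tree of a finite Cayley graph is a factor of IID)
-/

open SimpleGraph MeasureTheory ProbabilityTheory Filter Topology

namespace Vale.Agent.P143

section general
variable {V : Type*} {G : SimpleGraph V}

theorem exhaustion_eventually_top [Finite V] {H : ℕ → G.Subgraph} (hH : IsExhaustion G H) :
    ∃ n₀, ∀ n ≥ n₀, H n = ⊤ := by
  classical
  cases nonempty_fintype V
  have hv : ∀ v : V, ∃ n, v ∈ (H n).verts := by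
    intro v
    have : v ∈ (⨆ n, H n).verts := by rw [hH.union]; trivial
    rw [Subgraph.verts_iSup] at this
    exact Set.mem_iUnion.mp this
  have he : ∀ p : V × V, ∃ n, G.Adj p.1 p.2 → (H n).Adj p.1 p.2 := by
    intro p
    by_cases h : G.Adj p.1 p.2
    · have h2 : (⨆ n, H n).Adj p.1 p.2 := by rw [hH.union]; exact h
      rw [Subgraph.iSup_adj] at h2
      obtain ⟨n, hn⟩ := h2
      exact ⟨n, fun _ => hn⟩
    · exact ⟨0, fun h' => absurd h' h⟩
  choose f hf using hv
  choose g hg using he
  refine ⟨max (Finset.univ.sup f) (Finset.univ.sup g), fun n hn => ?_⟩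
  apply le_antisymm le_top
  constructor
  · intro v _
    exact (hH.mono (le_trans (le_trans (Finset.le_sup (Finset.mem_univ v)) (le_max_left _ _))
      hn)).1 (hf v)
  · intro u v huv
    exact (hH.mono (le_trans (le_trans (Finset.le_sup (Finset.mem_univ (u, v)))
      (le_max_right _ _)) hn)).2 (hg (u, v) huv)

theorem isFUSF_of_finite [Finite V] {μ : Measure (Set (Sym2 V))} [IsProbabilityMeasure μ]
    (h : ∀ K P, (μ (cyl K P)).toReal = ustProb (⊤ : G.Subgraph) (cyl K P)) : IsFUSF G μ := by
  refine ⟨inferInstance, fun H hH K P => ?_⟩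
  obtain ⟨n₀, hn₀⟩ := exhaustion_eventually_top hH
  rw [h]
  apply tendsto_const_nhds.congr'
  filter_upwards [Filter.eventually_ge_atTop n₀] with n hn
  rw [hn₀ n hn]

theorem exists_sampler [Finite V] (hc : (⊤ : G.Subgraph).Connected) :
    ∃ τ : unitInterval → Set (Sym2 V), Measurable τ ∧ (∀ E, MeasurableSet (τ ⁻¹' E)) ∧
      ∀ E : Set (Set (Sym2 V)), (volume (τ ⁻¹' E)).toReal = ustProb (⊤ : G.Subgraph) E := by
  classical
  have hfin : {T | IsSpanningTree (⊤ : G.Subgraph) T}.Finite :=
    finite_spanningTrees' _ (Set.toFinite _)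
  obtain ⟨T₀, hT₀⟩ := exists_spanningTree' _ hc
  let Y := ↥{T | IsSpanningTree (⊤ : G.Subgraph) T}
  haveI : Finite Y := hfin
  haveI : Nonempty Y := ⟨⟨T₀, hT₀⟩⟩
  letI : MeasurableSpace Y := ⊤
  haveI : DiscreteMeasurableSpace Y := ⟨fun _ => trivial⟩
  cases nonempty_fintype Y
  obtain ⟨τ', hm, hmap⟩ := Measure.exists_measurable_map_eq (uniformOn (Set.univ : Set Y))
  have hpre : ∀ E : Set (Set (Sym2 V)), (fun x => (τ' x).1.edgeSet) ⁻¹' E =
      τ' ⁻¹' {y : Y | y.1.edgeSet ∈ E} := fun E => rfl
  refine ⟨fun x => (τ' x).1.edgeSet, ?_, ?_, ?_⟩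
  · exact (Measurable.of_discrete (f := fun y : Y => y.1.edgeSet)).comp hm
  · intro E
    rw [hpre]
    exact hm (MeasurableSet.of_discrete)
  · intro E
    rw [hpre, ← Measure.map_apply hm MeasurableSet.of_discrete, hmap, uniformOn_univ,
      Measure.count_apply_finite _ (Set.toFinite _), ← Set.ncard_eq_toFinset_card,
      ENNReal.toReal_div]
    unfold ustProb
    simp only [ENNReal.toReal_natCast]
    congr 1
    · have := Set.ncard_subtype (fun T => IsSpanningTree (⊤ : G.Subgraph) T)
        {T : SimpleGraph V | T.edgeSet ∈ E}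
      norm_cast
      rw [Set.inter_comm] at this
      exact this
    · norm_cast
      rw [← Nat.card_eq_fintype_card]
      exact Nat.card_coe_set_eq _

end general


variable {A : Type*} [Group A]

/-- The translate by `v` of an edge configuration. -/
def tr (v : A) (ω : Set (Sym2 A)) : Set (Sym2 A) := Sym2.map (fun x => v⁻¹ * x) ⁻¹' ω

/-- Sample a configuration with `τ` at the vertex of minimal label, and translate it there. -/
def finF' (τ : unitInterval → Set (Sym2 A)) (W : A × Bool → unitInterval) : Set (Sym2 A) :=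
  {e | ∃ v, (∀ w, W (v, false) ≤ W (w, false)) ∧ e ∈ tr v (τ (W (v, true)))}

/-- The factor map for a finite group. -/
noncomputable def finF (τ : unitInterval → Set (Sym2 A)) (U : A → unitInterval) : Set (Sym2 A) :=
  finF' τ (splitL U)

theorem finF_equivariant (τ : unitInterval → Set (Sym2 A)) : Equivar (finF τ) := by
  intro γ U
  ext e
  constructor
  · rintro ⟨v, h1, h2⟩
    refine ⟨Sym2.map (fun x => γ⁻¹ * x) e, ⟨γ⁻¹ * v, fun w => ?_, ?_⟩, ?_⟩
    · have := h1 (γ * w)
      have e1 : splitL (fun v => U (γ⁻¹ * v)) (γ * w, false) = splitL U (w, false) := by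
        simp [splitL]
      rw [e1] at this
      exact this
    · show Sym2.map (fun x => (γ⁻¹ * v)⁻¹ * x) (Sym2.map (fun x => γ⁻¹ * x) e) ∈
        τ (splitL U (γ⁻¹ * v, true))
      rw [Sym2.map_map]
      have : ((fun x => (γ⁻¹ * v)⁻¹ * x) ∘ fun x => γ⁻¹ * x) = fun x => v⁻¹ * x := by
        funext x; simp [mul_assoc]
      rw [this]
      exact h2
    · rw [Sym2.map_map]
      have : ((fun v => γ * v) ∘ fun x => γ⁻¹ * x) = id := by funext x; simp
      rw [this, Sym2.map_id]; rfl
  · rintro ⟨e', ⟨v, h1, h2⟩, rfl⟩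
    refine ⟨γ * v, fun w => ?_, ?_⟩
    · show splitL U (γ⁻¹ * (γ * v), false) ≤ splitL U (γ⁻¹ * w, false)
      rw [inv_mul_cancel_left]; exact h1 _
    · show Sym2.map (fun x => (γ * v)⁻¹ * x) (Sym2.map (fun v => γ * v) e') ∈
        τ (splitL U (γ⁻¹ * (γ * v), true))
      rw [inv_mul_cancel_left, Sym2.map_map]
      have : ((fun x => (γ * v)⁻¹ * x) ∘ fun v => γ * v) = fun x => v⁻¹ * x := by
        funext x; simp [mul_assoc]
      rw [this]; exact h2

theorem measurable_finF' [Countable A] {τ : unitInterval → Set (Sym2 A)} (hτ : Measurable τ) :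
    Measurable (finF' τ) := by
  rw [measurable_set_iff]
  intro e
  refine Measurable.exists fun v => Measurable.and (Measurable.forall fun w => ?_) ?_
  · exact measurableSet_setOfPred.mp
      (measurableSet_le (measurable_pi_apply (v, false)) (measurable_pi_apply (w, false)))
  · exact (measurable_set_mem (Sym2.map (fun x => v⁻¹ * x) e)).comp
      (hτ.comp (measurable_pi_apply (v, true)))

/-- The event that `v` carries the strictly minimal label. -/
def Mv (v : A) : Set (A → unitInterval) := {V | ∀ w, w ≠ v → V v < V w}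

theorem measurableSet_Mv [Countable A] (v : A) : MeasurableSet (Mv v) := by
  have : Mv v = ⋂ w, {V : A → unitInterval | w ≠ v → V v < V w} := by ext V; simp [Mv]
  rw [this]
  refine MeasurableSet.iInter fun w => ?_
  by_cases h : w = v
  · simp [h]
  · simp only [ne_eq, h, not_false_eq_true, forall_true_left]
    exact measurableSet_lt (measurable_pi_apply v) (measurable_pi_apply w)

theorem finF'_eq {τ : unitInterval → Set (Sym2 A)} {W : A × Bool → unitInterval} {v : A}
    (hv : (fun x => W (x, false)) ∈ Mv v) : finF' τ W = tr v (τ (W (v, true))) := by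
  ext e
  constructor
  · rintro ⟨v', h1, h2⟩
    have : v' = v := by
      by_contra hne
      exact absurd (hv v' hne) (not_lt.mpr (h1 v))
    rw [this] at h2
    exact h2
  · intro h
    refine ⟨v, fun w => ?_, h⟩
    by_cases hw : w = v
    · rw [hw]
    · exact (hv w hw).le

theorem law_finF' [Fintype A] (τ : unitInterval → Set (Sym2 A))
    (hτ : ∀ E, MeasurableSet (τ ⁻¹' E)) (E : Set (Set (Sym2 A))) :
    iidLaw (A × Bool) {W | finF' τ W ∈ E} =
      ∑ v, iidLaw A (Mv v) * volume (τ ⁻¹' (tr v ⁻¹' E)) := by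
  have hae : ∀ᵐ W ∂iidLaw (A × Bool), ∀ x y : A, x ≠ y → W (x, false) ≠ W (y, false) := by
    rw [ae_all_iff]; intro x; rw [ae_all_iff]; intro y
    by_cases hxy : x = y
    · simp [hxy]
    · have := tie_null (V := A × Bool) (x := (x, false)) (y := (y, false)) (by simp [hxy])
      rw [measure_eq_zero_iff_ae_notMem] at this
      filter_upwards [this] with W hW _
      exact hW
  set F₂ : A → Set (A → unitInterval) := fun v => (fun V => V v) ⁻¹' (τ ⁻¹' (tr v ⁻¹' E)) with hF₂
  have mF₂ : ∀ v, MeasurableSet (F₂ v) := fun v => measurable_pi_apply v (hτ _)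
  have h1 : iidLaw (A × Bool) {W | finF' τ W ∈ E} = iidLaw (A × Bool)
      (⋃ v, {W | (fun x => W (x, false)) ∈ Mv v ∧ (fun x => W (x, true)) ∈ F₂ v}) := by
    apply measure_congr
    filter_upwards [hae] with W hW
    apply propext
    show finF' τ W ∈ E ↔ W ∈ ⋃ v, _
    rw [Set.mem_iUnion]
    obtain ⟨v, hv⟩ := Finite.exists_min (fun x => W (x, false))
    have hvM : (fun x => W (x, false)) ∈ Mv v :=
      fun w hw => lt_of_le_of_ne (hv w) (hW v w hw.symm)
    constructor
    · intro h
      refine ⟨v, hvM, ?_⟩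
      show tr v (τ (W (v, true))) ∈ E
      rw [← finF'_eq hvM]; exact h
    · rintro ⟨v', hv', h⟩
      rw [finF'_eq hv']; exact h
  rw [h1, measure_iUnion ?_ (fun v => measurableSet_pair _ _ (measurableSet_Mv v) (mF₂ v)),
    tsum_fintype]
  · refine Finset.sum_congr rfl fun v _ => ?_
    rw [iidLaw_pair _ _ (measurableSet_Mv v) (mF₂ v)]
    congr 1
    rw [← map_eval v, Measure.map_apply (measurable_pi_apply v) (hτ _)]
  · intro v v' hne
    rw [Function.onFun, Set.disjoint_left]
    rintro W ⟨h1, _⟩ ⟨h2, _⟩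
    exact absurd (h1 v' hne.symm) (not_lt.mpr (h2 v hne).le)

theorem sum_Mv [Fintype A] : ∑ v : A, iidLaw A (Mv v) = 1 := by
  have := law_finF' (A := A) (fun _ => ∅) (fun E => by
    by_cases h : (∅ : Set (Sym2 A)) ∈ E
    · have : (fun _ : unitInterval => (∅ : Set (Sym2 A))) ⁻¹' E = Set.univ := by ext; simp [h]
      rw [this]; exact MeasurableSet.univ
    · have : (fun _ : unitInterval => (∅ : Set (Sym2 A))) ⁻¹' E = ∅ := by ext; simp [h]
      rw [this]; exact MeasurableSet.empty) Set.univ
  simpa using this.symm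


/-- The translate by `v` of a graph. -/
def trG (v : A) (T : SimpleGraph A) : SimpleGraph A := T.comap (fun x => v⁻¹ * x)

theorem edgeSet_trG (v : A) (T : SimpleGraph A) : (trG v T).edgeSet = tr v T.edgeSet := by
  ext e
  induction e using Sym2.ind with
  | _ x y => rfl

theorem trG_trG_inv (v : A) (T : SimpleGraph A) : trG v (trG v⁻¹ T) = T := by
  ext x y
  simp [trG]

theorem trG_inv_trG (v : A) (T : SimpleGraph A) : trG v⁻¹ (trG v T) = T := by
  ext x y
  simp [trG]

theorem trG_spanning (S : Set A) (v : A) {T : SimpleGraph A}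
    (hT : IsSpanningTree (⊤ : (mulCayley S).Subgraph) T) :
    IsSpanningTree (⊤ : (mulCayley S).Subgraph) (trG v T) := by
  refine ⟨?_, ?_, ?_⟩
  · intro x y h
    have h0 : T.Adj (v⁻¹ * x) (v⁻¹ * y) := h
    have h1 : (mulCayley S).Adj (v⁻¹ * x) (v⁻¹ * y) := by simpa using hT.1 h0
    simpa using (mulCayley_adj_mul_iff_right.mp h1)
  · let f : trG v T →g T := ⟨fun x => v⁻¹ * x, fun {a b} h => h⟩
    exact hT.2.1.comap f (mul_right_injective _)
  · intro x _ y _
    have := hT.2.2 (v⁻¹ * x) trivial (v⁻¹ * y) trivial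
    let g : T →g trG v T := ⟨fun x => v * x, fun {a b} h => by
      show T.Adj (v⁻¹ * (v * a)) (v⁻¹ * (v * b))
      simpa using h⟩
    have h2 := this.map g
    simpa [g] using h2

theorem ustProb_tr (S : Set A) (v : A) (E : Set (Set (Sym2 A))) :
    ustProb (⊤ : (mulCayley S).Subgraph) (tr v ⁻¹' E) = ustProb (⊤ : (mulCayley S).Subgraph) E := by
  unfold ustProb
  have : {T | IsSpanningTree (⊤ : (mulCayley S).Subgraph) T ∧ T.edgeSet ∈ E} =
      trG v '' {T | IsSpanningTree (⊤ : (mulCayley S).Subgraph) T ∧ T.edgeSet ∈ tr v ⁻¹' E} := by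
    ext T'
    constructor
    · rintro ⟨h1, h2⟩
      refine ⟨trG v⁻¹ T', ⟨trG_spanning S _ h1, ?_⟩, trG_trG_inv v T'⟩
      show tr v (trG v⁻¹ T').edgeSet ∈ E
      rw [← edgeSet_trG, trG_trG_inv]; exact h2
    · rintro ⟨T, ⟨h1, h2⟩, rfl⟩
      exact ⟨trG_spanning S v h1, by rw [edgeSet_trG]; exact h2⟩
  rw [this, Set.ncard_image_of_injective _ (Function.LeftInverse.injective (trG_inv_trG v))]

/-- The uniform spanning tree of the Cayley graph of a finite group is a factor of IID. -/
theorem fusf_finite [Finite A] (S : Set A) (hS : Subgroup.closure S = ⊤) :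
    ∃ μ : Measure (Set (Sym2 A)), IsFUSF (mulCayley S) μ ∧ IsFactorOfIID A μ := by
  cases nonempty_fintype A
  have hc : (⊤ : (mulCayley S).Subgraph).Connected :=
    connected_of_reachable _ ⟨1, trivial⟩ (fun u _ v _ => by
      rw [Subgraph.spanningCoe_top]; exact preconnected_of_closure S hS u v)
  obtain ⟨τ, mτ, hτ, hlaw⟩ := exists_sampler hc
  have mF : Measurable (finF τ) := (measurable_finF' mτ).comp measurable_splitL
  have : IsProbabilityMeasure ((iidLaw A).map (finF τ)) :=
    Measure.isProbabilityMeasure_map mF.aemeasurable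
  refine ⟨(iidLaw A).map (finF τ), isFUSF_of_finite fun K P => ?_, finF τ, mF,
    finF_equivariant τ, rfl⟩
  rw [Measure.map_apply mF (measurableSet_cyl K P)]
  have hpre : finF τ ⁻¹' cyl K P = splitL ⁻¹' {W | finF' τ W ∈ cyl K P} := rfl
  have hms : MeasurableSet {W | finF' τ W ∈ cyl K P} :=
    (measurable_finF' mτ) (measurableSet_cyl K P)
  rw [hpre, ← Measure.map_apply measurable_splitL hms, map_splitL, law_finF' τ hτ,
    ENNReal.toReal_sum (fun v _ => ENNReal.mul_ne_top (measure_ne_top _ _) (measure_ne_top _ _))]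
  simp only [ENNReal.toReal_mul, hlaw, ustProb_tr]
  rw [← Finset.sum_mul, ← ENNReal.toReal_sum (fun v _ => measure_ne_top _ _), sum_Mv]
  simp

end Vale.Agent.P143
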