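import Vale.Agent.Lib.P143.Factor

/-!
# P143: the abstract theorem for graphs made of triangle blocks and bridges
-/

open MeasureTheory ProbabilityTheory Filter Topology

namespace Vale.Agent.P143

variable {V : Type*}

namespace TriSys

variable {G : SimpleGraph V} {ρ : V → V} (h : TriSys G ρ)
include h

theorem apexAll_unique {U : V → unitInterval} {W M M' : Finset V} (hM : IsTransversal ρ W M)
    (hM' : IsTransversal ρ W M') (hU : U ∈ apexAll ρ M) (hU' : U ∈ apexAll ρ M') : M ⊆ M' := by
  intro v hv
  rcases hM'.2.2 v (hM.1 hv) with h1 | h1 | h1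
  · exact h1
  · exact (h.apex_conflict1 (hU v hv) (hU' _ h1)).elim
  · exact (h.apex_conflict2 (hU v hv) (hU' _ h1)).elim

theorem fiid_eq (K A : Finset (Sym2 V)) (W : Finset V)
    (hKW : ∀ v, opp ρ v ∈ K → v ∈ W) (hWρ : ∀ w ∈ W, ρ w ∈ W) :
    ((iidLaw V).map (triFactor G ρ) (cyl K A)).toReal =
      ∑ M ∈ transversals ρ W, if confOf G ρ K M = ↑A then ((3 : ℝ) ^ M.card)⁻¹ else 0 := by
  classical
  rw [Measure.map_apply h.measurable_triFactor (measurableSet_cyl K A)]
  set E := triFactor G ρ ⁻¹' cyl K A with hE
  have hEm : MeasurableSet E := h.measurable_triFactor (measurableSet_cyl K A)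
  rw [← measure_inter_conull (h.conull_union W hWρ), Set.inter_iUnion₂]
  rw [measure_biUnion_finset]
  · rw [ENNReal.toReal_sum (fun M _ => measure_ne_top _ _)]
    apply Finset.sum_congr rfl
    intro M hM
    have hM1 := mem_transversals.mp hM
    split_ifs with hconf
    · have : E ∩ apexAll ρ M = apexAll ρ M := by
        apply Set.inter_eq_right.mpr
        intro U hU
        show triFactor G ρ U ∩ ↑K = ↑A
        rw [h.fiid_config hKW hM1 hU, hconf]
      rw [this, h.measure_apexAll M hM1.2.1]
      simp
    · have : E ∩ apexAll ρ M = ∅ := by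
        ext U
        simp only [Set.mem_inter_iff, Set.mem_empty_iff_false, iff_false, not_and]
        intro hUE hU
        apply hconf
        rw [← h.fiid_config hKW hM1 hU]
        exact hUE
      rw [this]
      simp
  · intro M hM M' hM' hne
    rw [Function.onFun, Set.disjoint_left]
    rintro U ⟨_, hU⟩ ⟨_, hU'⟩
    apply hne
    have hM1 := mem_transversals.mp hM
    have hM2 := mem_transversals.mp hM'
    exact Finset.Subset.antisymm (h.apexAll_unique hM1 hM2 hU hU') (h.apexAll_unique hM2 hM1 hU' hU)
  · intro M _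
    exact hEm.inter (measurableSet_apexAll ρ M)

/-- eventually, a given edge of `G` is in the exhaustion -/
theorem eventually_adj {H : ℕ → G.Subgraph} (hH : IsExhaustion G H) {x y : V} (hxy : G.Adj x y) :
    ∀ᶠ n in atTop, (H n).Adj x y := by
  have : (⨆ n, H n).Adj x y := by rw [hH.union]; exact hxy
  rw [SimpleGraph.Subgraph.iSup_adj] at this
  obtain ⟨n, hn⟩ := this
  filter_upwards [eventually_ge_atTop n] with m hm
  exact (hH.mono hm).2 hn

theorem isFUSF : IsFUSF G ((iidLaw V).map (triFactor G ρ)) := by
  classical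
  refine ⟨Measure.isProbabilityMeasure_map h.measurable_triFactor.aemeasurable, ?_⟩
  intro H hH K A
  -- the window of vertices
  have hfinB : {v | opp ρ v ∈ K}.Finite :=
    Set.Finite.preimage (h.opp_inj.injOn) K.finite_toSet
  set B := hfinB.toFinset with hB
  set W := triVerts ρ B with hW
  have hKW : ∀ v, opp ρ v ∈ K → v ∈ W := by
    intro v hv
    rw [hW, h.mem_triVerts_iff]
    left
    rw [hB, Set.Finite.mem_toFinset]
    exact hv
  have hWρ : ∀ w ∈ W, ρ w ∈ W := by
    intro w hw
    rw [hW, h.mem_triVerts_iff] at hw ⊢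
    rw [h.cube]
    tauto
  have ev1 : ∀ᶠ n in atTop, ∀ v ∈ W, TriIn (H n) ρ v := by
    rw [eventually_all_finset]
    intro v _
    have a1 := h.eventually_adj hH (h.adj v)
    have a2 := h.eventually_adj hH (h.adj (ρ v))
    have a3 := h.eventually_adj hH (h.adj (ρ (ρ v)))
    rw [h.cube] at a3
    filter_upwards [a1, a2, a3] with n b1 b2 b3
    exact ⟨b1, b2, b3⟩
  have ev2 : ∀ᶠ n in atTop, ∀ e ∈ K, e ∈ G.edgeSet → e ∈ (H n).edgeSet := by
    rw [eventually_all_finset]
    intro e _
    by_cases he : e ∈ G.edgeSet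
    · induction e using Sym2.ind with
      | _ x y =>
        filter_upwards [h.eventually_adj hH (show G.Adj x y from he)] with n hn _
        exact hn
    · exact Eventually.of_forall fun n hh => absurd hh he
  rw [h.fiid_eq K A W hKW hWρ]
  apply tendsto_const_nhds.congr'
  filter_upwards [ev1, ev2] with n h1 h2
  exact (h.ustProb_eq (H n) (hH.finite n) (hH.connected n) K A W hKW hWρ h1 h2).symm

end TriSys

end Vale.Agent.P143
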