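import Vale.Agent.Lib.P143.Count

/-!
# P143: the label process and the apex events
-/

open MeasureTheory ProbabilityTheory

namespace Vale.Agent.P143


variable {V : Type*}

instance : IsProbabilityMeasure (iidLaw V) := by
  unfold iidLaw; infer_instance

theorem iIndepFun_eval : iIndepFun (fun (i : V) (ω : V → unitInterval) => ω i) (iidLaw V) := by
  have := iIndepFun_infinitePi (P := fun _ : V => (volume : Measure unitInterval))
    (X := fun _ => id) (fun _ => measurable_id)
  exact this

theorem map_eval (x : V) : (iidLaw V).map (fun ω => ω x) = volume :=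
  (measurePreserving_eval_infinitePi (fun _ : V => (volume : Measure unitInterval)) x).map_eq

theorem tie_null {x y : V} (hxy : x ≠ y) : iidLaw V {U | U x = U y} = 0 := by
  have hind : IndepFun (fun ω : V → unitInterval => ω x) (fun ω => ω y) (iidLaw V) :=
    iIndepFun_eval.indepFun hxy
  have hmap := (indepFun_iff_map_prod_eq_prod_map_map (measurable_pi_apply x).aemeasurable
    (measurable_pi_apply y).aemeasurable).mp hind
  rw [map_eval, map_eval] at hmap
  have hdiag : MeasurableSet (Set.diagonal unitInterval) := measurableSet_diagonal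
  have h0 : ((volume : Measure unitInterval).prod (volume : Measure unitInterval))
      (Set.diagonal unitInterval) = 0 := by
    rw [Measure.measure_prod_null hdiag]
    refine Filter.Eventually.of_forall fun a => ?_
    have : Prod.mk a ⁻¹' Set.diagonal unitInterval = {a} := by
      ext b; simp [eq_comm]
    simp [this]
  rw [← hmap, Measure.map_apply ((measurable_pi_apply x).prodMk (measurable_pi_apply y)) hdiag] at h0
  exact h0

/-- The event that `v` carries the strictly largest label of its triangle. -/
def apexEv (ρ : V → V) (v : V) : Set (V → unitInterval) :=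
  {U | U (ρ v) < U v ∧ U (ρ (ρ v)) < U v}

theorem measurableSet_apexEv (ρ : V → V) (v : V) : MeasurableSet (apexEv ρ v) :=
  (measurableSet_lt (measurable_subtype_coe.comp (measurable_pi_apply (ρ v)))
    (measurable_subtype_coe.comp (measurable_pi_apply v))).inter
    (measurableSet_lt (measurable_subtype_coe.comp (measurable_pi_apply (ρ (ρ v))))
      (measurable_subtype_coe.comp (measurable_pi_apply v)))

/-- The event `E` depends only on the coordinates in `S`. -/
def DependsOn' (E : Set (V → unitInterval)) (S : Finset V) : Prop :=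
  ∀ a a' : V → unitInterval, (∀ x ∈ S, a x = a' x) → (a ∈ E ↔ a' ∈ E)

open Classical in
/-- Extension by zero of a labelling of `S`. -/
noncomputable def extZero (S : Finset V) (w : S → unitInterval) : V → unitInterval :=
  fun x => if hx : x ∈ S then w ⟨x, hx⟩ else 0

theorem measurable_extZero (S : Finset V) : Measurable (extZero S) := by
  classical
  rw [measurable_pi_iff]
  intro x
  unfold extZero
  by_cases hx : x ∈ S
  · simp only [hx, dite_true]
    exact measurable_pi_apply _
  · simp only [hx, dite_false]
    exact measurable_const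

theorem preimage_ext_eq {E : Set (V → unitInterval)} {S : Finset V} (hE : DependsOn' E S) :
    (fun (a : V → unitInterval) (i : S) => a i) ⁻¹' (extZero S ⁻¹' E) = E := by
  ext a
  simp only [Set.mem_preimage]
  apply hE
  intro x hx
  simp [extZero, hx]

theorem measure_inter_of_dependsOn {E F : Set (V → unitInterval)} {S T : Finset V}
    (hE : DependsOn' E S) (hF : DependsOn' F T) (hmE : MeasurableSet E) (hmF : MeasurableSet F)
    (hST : Disjoint S T) : iidLaw V (E ∩ F) = iidLaw V E * iidLaw V F := by
  have hind := iIndepFun_eval.indepFun_finset S T hST (fun i => measurable_pi_apply i)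
  have := hind.measure_inter_preimage_eq_mul (extZero S ⁻¹' E) (extZero T ⁻¹' F)
    (measurable_extZero S hmE) (measurable_extZero T hmF)
  rwa [preimage_ext_eq hE, preimage_ext_eq hF] at this


namespace TriSys

variable {G : SimpleGraph V} {ρ : V → V} (h : TriSys G ρ)
include h

/-- `ρ` as a permutation. -/
def perm : Equiv.Perm V where
  toFun := ρ
  invFun := fun v => ρ (ρ v)
  left_inv := fun v => h.cube v
  right_inv := fun v => h.cube v

theorem measure_apexEv_rho (v : V) : iidLaw V (apexEv ρ (ρ v)) = iidLaw V (apexEv ρ v) := by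
  have hm := Measure.infinitePi_map_piCongrLeft (X := fun _ : V => unitInterval)
    (fun _ : V => (volume : Measure unitInterval)) h.perm
  have hm' : Measure.map (⇑(MeasurableEquiv.piCongrLeft (fun _ : V => unitInterval) h.perm))
      (iidLaw V) = iidLaw V := hm
  conv_lhs => rw [← hm']
  rw [Measure.map_apply (MeasurableEquiv.measurable _) (measurableSet_apexEv ρ _)]
  congr 1
  ext U
  have key : ∀ a, (MeasurableEquiv.piCongrLeft (fun _ : V => unitInterval) h.perm) U (ρ a) = U a := by
    intro a
    exact Equiv.piCongrLeft_apply_apply (fun _ : V => unitInterval) h.perm U a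
  simp only [apexEv, Set.mem_preimage, Set.mem_ofPred_eq, key]

theorem measure_apexEv (v : V) : iidLaw V (apexEv ρ v) = 3⁻¹ := by
  have e1 := h.measure_apexEv_rho v
  have e2 := h.measure_apexEv_rho (ρ v)
  have hd1 : Disjoint (apexEv ρ v) (apexEv ρ (ρ v) ∪ apexEv ρ (ρ (ρ v))) := by
    rw [Set.disjoint_left]
    rintro U ⟨h1, h2⟩ (⟨h3, h4⟩ | ⟨h3, h4⟩)
    · rw [h.cube] at h4
      exact lt_asymm h1 h4
    · rw [h.cube] at h3
      exact lt_asymm h2 h3
  have hd2 : Disjoint (apexEv ρ (ρ v)) (apexEv ρ (ρ (ρ v))) := by
    rw [Set.disjoint_left]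
    rintro U ⟨h1, h2⟩ ⟨h3, h4⟩
    rw [h.cube] at h4
    exact lt_asymm h1 h4
  have hun : iidLaw V (apexEv ρ v ∪ (apexEv ρ (ρ v) ∪ apexEv ρ (ρ (ρ v)))) = 1 := by
    have hsub : (apexEv ρ v ∪ (apexEv ρ (ρ v) ∪ apexEv ρ (ρ (ρ v))))ᶜ ⊆
        {U | U v = U (ρ v)} ∪ ({U | U (ρ v) = U (ρ (ρ v))} ∪ {U | U (ρ (ρ v)) = U v}) := by
      intro U hU
      simp only [apexEv, Set.mem_compl_iff, Set.mem_union, Set.mem_ofPred_eq, h.cube, not_or,
        not_and, not_lt] at hU ⊢
      obtain ⟨h1, h2, h3⟩ := hU
      by_contra hcon
      push Not at hcon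
      obtain ⟨c1, c2, c3⟩ := hcon
      rcases lt_trichotomy (U v) (U (ρ v)) with t1 | t1 | t1
      · rcases lt_trichotomy (U (ρ v)) (U (ρ (ρ v))) with t2 | t2 | t2
        · exact absurd (h3 (t1.trans t2)) (not_le.mpr t2)
        · exact c2 t2
        · exact absurd (h2 t2) (not_le.mpr t1)
      · exact c1 t1
      · rcases lt_trichotomy (U (ρ (ρ v))) (U v) with t2 | t2 | t2
        · exact absurd (h1 t1) (not_le.mpr t2)
        · exact c3 t2
        · exact absurd (h3 t2) (not_le.mpr (t1.trans t2))
    have hnull : iidLaw V (apexEv ρ v ∪ (apexEv ρ (ρ v) ∪ apexEv ρ (ρ (ρ v))))ᶜ = 0 := by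
      apply measure_mono_null hsub
      rw [measure_union_null_iff, measure_union_null_iff]
      exact ⟨tie_null (h.ne v).symm, tie_null (h.ne _).symm, tie_null (h.ne2 v)⟩
    have hmeas : MeasurableSet (apexEv ρ v ∪ (apexEv ρ (ρ v) ∪ apexEv ρ (ρ (ρ v)))) :=
      (measurableSet_apexEv _ _).union ((measurableSet_apexEv _ _).union (measurableSet_apexEv _ _))
    rw [← prob_compl_eq_zero_iff hmeas]
    exact hnull
  rw [measure_union hd1 ((measurableSet_apexEv _ _).union (measurableSet_apexEv _ _)),
    measure_union hd2 (measurableSet_apexEv _ _), e2, e1] at hun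
  have h3 : 3 * iidLaw V (apexEv ρ v) = 1 := by
    rw [← hun]; ring
  rw [ENNReal.eq_inv_of_mul_eq_one_left (a := iidLaw V (apexEv ρ v)) (b := 3)]
  rw [mul_comm]; exact h3

end TriSys


end Vale.Agent.P143
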