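import Vale.Agent.Lib.P143.Cosets
import Vale.Agent.Lib.P143.Main

/-!
# P143: the free product of Z/2 and Z/3
-/

open Monoid SimpleGraph MeasureTheory

namespace Vale.Agent.P143

/-- equivariance of the factor map on Cayley graphs -/
theorem triFactor_equivariant {Γ : Type*} [Group Γ] (S : Set Γ) (b : Γ) (γ : Γ)
    (U : Γ → unitInterval) :
    triFactor (mulCayley S) (fun v => v * b) (fun v => U (γ⁻¹ * v)) =
      Sym2.map (fun v => γ * v) '' triFactor (mulCayley S) (fun v => v * b) U := by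
  have hopp : ∀ (δ v : Γ), Sym2.map (fun v => δ * v) (opp (fun v => v * b) v) =
      opp (fun v => v * b) (δ * v) := by
    intro δ v
    simp [opp, mul_assoc]
  have hedge : ∀ (δ : Γ) (e : Sym2 Γ), Sym2.map (fun v => δ * v) e ∈ (mulCayley S).edgeSet ↔
      e ∈ (mulCayley S).edgeSet := by
    intro δ e
    induction e using Sym2.ind with
    | _ x y => simp
  have hap : ∀ v, (fun v => U (γ⁻¹ * v)) ∈ apexEv (fun v => v * b) v ↔
      U ∈ apexEv (fun v => v * b) (γ⁻¹ * v) := by
    intro v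
    simp [apexEv, mul_assoc]
  have hinv : ∀ e : Sym2 Γ, Sym2.map (fun v => γ * v) (Sym2.map (fun v => γ⁻¹ * v) e) = e := by
    intro e
    rw [Sym2.map_map]
    have : ((fun v => γ * v) ∘ fun v => γ⁻¹ * v) = id := by
      funext v; simp
    rw [this, Sym2.map_id]; rfl
  have hinv' : ∀ e : Sym2 Γ, Sym2.map (fun v => γ⁻¹ * v) (Sym2.map (fun v => γ * v) e) = e := by
    intro e
    rw [Sym2.map_map]
    have : ((fun v => γ⁻¹ * v) ∘ fun v => γ * v) = id := by
      funext v; simp
    rw [this, Sym2.map_id]; rfl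
  ext e
  constructor
  · rintro ⟨h1, h2⟩
    refine ⟨Sym2.map (fun v => γ⁻¹ * v) e, ⟨(hedge _ _).mpr h1, ?_⟩, hinv e⟩
    intro v hv hU
    have hv' : e = opp (fun v => v * b) (γ * v) := by
      rw [← hopp, ← hv, hinv]
    apply h2 _ hv'
    rw [hap]
    simpa using hU
  · rintro ⟨e', ⟨h1, h2⟩, rfl⟩
    refine ⟨(hedge _ _).mpr h1, ?_⟩
    intro v hv hU
    rw [hap] at hU
    apply h2 _ _ hU
    rw [← hopp, ← hv, hinv']

abbrev Z2 := Multiplicative (ZMod 2)
abbrev Z3 := Multiplicative (ZMod 3)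
abbrev Gam := Coprod Z2 Z3
def ga : Gam := Coprod.inl (Multiplicative.ofAdd 1)
def gb : Gam := Coprod.inr (Multiplicative.ofAdd 1)

theorem ga_sq : ga * ga = 1 := by
  unfold ga
  rw [← map_mul]
  have : (Multiplicative.ofAdd (1 : ZMod 2)) * Multiplicative.ofAdd 1 = 1 := by decide
  rw [this, map_one]

theorem gb_cube : gb * gb * gb = 1 := by
  unfold gb
  rw [← map_mul, ← map_mul]
  have : (Multiplicative.ofAdd (1 : ZMod 3)) * Multiplicative.ofAdd 1 * Multiplicative.ofAdd 1 = 1 := by
    decide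
  rw [this, map_one]

theorem gb_ne_one : gb ≠ 1 := by
  unfold gb
  intro h
  rw [← map_one (Coprod.inr : Z3 →* Gam)] at h
  have := Coprod.inr_injective h
  revert this
  decide

theorem hS : ∀ g ∈ ({ga, gb} : Set Gam), g ∈ Set.range (Coprod.inl : Z2 → Gam) ∨
    g ∈ Set.range (Coprod.inr : Z3 → Gam) := by
  rintro g (rfl | rfl)
  · exact Or.inl ⟨_, rfl⟩
  · exact Or.inr ⟨_, rfl⟩

theorem z3_cases : ∀ g : Z3,
    g = 1 ∨ g = Multiplicative.ofAdd 1 ∨ g = Multiplicative.ofAdd 1 * Multiplicative.ofAdd 1 := by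
  decide

theorem z2_cases : ∀ g : Z2, g = 1 ∨ g = Multiplicative.ofAdd 1 := by
  decide

theorem mem_cosetR_iff (x y : Gam) : y ∈ cosetR x ↔ y = x ∨ y = x * gb ∨ y = x * gb * gb := by
  constructor
  · rintro ⟨g, hg⟩
    have hy : y = x * Coprod.inr g := by rw [hg]; group
    have : g = 1 ∨ g = Multiplicative.ofAdd 1 ∨ g = Multiplicative.ofAdd 1 * Multiplicative.ofAdd 1 :=
      z3_cases g
    rcases this with rfl | rfl | rfl
    · left; simpa using hy
    · right; left; exact hy
    · right; right; rw [hy, map_mul, mul_assoc]; rfl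
  · rintro (rfl | rfl | rfl)
    · exact ⟨1, by simp⟩
    · exact ⟨Multiplicative.ofAdd 1, by simp [gb]⟩
    · exact ⟨Multiplicative.ofAdd 1 * Multiplicative.ofAdd 1, by simp [gb, mul_assoc]⟩

theorem mem_cosetL_iff (x y : Gam) : y ∈ cosetL x ↔ y = x ∨ y = x * ga := by
  constructor
  · rintro ⟨g, hg⟩
    have hy : y = x * Coprod.inl g := by rw [hg]; group
    have : g = 1 ∨ g = Multiplicative.ofAdd 1 := z2_cases g
    rcases this with rfl | rfl
    · left; simpa using hy
    · right; exact hy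
  · rintro (rfl | rfl)
    · exact ⟨1, by simp⟩
    · exact ⟨Multiplicative.ofAdd 1, by simp [ga]⟩

theorem triSys : TriSys (mulCayley ({ga, gb} : Set Gam)) (fun v => v * gb) where
  cube v := by
    show v * gb * gb * gb = v
    rw [mul_assoc, mul_assoc, ← mul_assoc gb, gb_cube, mul_one]
  ne v := by
    show v * gb ≠ v
    intro h
    exact gb_ne_one (by simpa using h)
  adj v := by
    rw [mulCayley_adj']
    refine ⟨fun h => gb_ne_one (by simpa using h.symm), gb, by simp, Or.inl rfl⟩
  block T hT v hr := by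
    have hne : v ≠ v * gb := fun h => gb_ne_one (by simpa using h.symm)
    have hw : v * gb ∈ cosetR v := (mem_cosetR_iff _ _).mpr (Or.inr (Or.inl rfl))
    obtain ⟨y, hy, hyB⟩ := exists_adj_cosetR hS hT hw hne hr
    rcases (mem_cosetR_iff _ _).mp hyB with rfl | rfl | rfl
    · exact absurd rfl hy.ne
    · exact Or.inl hy
    · exact Or.inr hy
  bridge u v huv h1 h2 T hT hr := by
    have hv : v = u * ga := by
      rw [mulCayley_adj'] at huv
      obtain ⟨_, g, hg, h3⟩ := huv
      rcases hg with rfl | rfl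
      · rcases h3 with h3 | h3
        · exact h3.symm
        · rw [h3, mul_assoc, ga_sq, mul_one]
      · rcases h3 with h3 | h3
        · exact absurd h3.symm h1
        · exact absurd h3 h2
    subst hv
    have hw : u * ga ∈ cosetL u := (mem_cosetL_iff _ _).mpr (Or.inr rfl)
    obtain ⟨y, hy, hyB⟩ := exists_adj_cosetL hS hT hw huv.ne hr
    rcases (mem_cosetL_iff _ _).mp hyB with rfl | rfl
    · exact absurd rfl hy.ne
    · exact hy

end Vale.Agent.P143
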