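import Vale.Agent.Lib.P143.UstSide

/-!
# P143: the law of the product factor map on a cylinder event
-/

open SimpleGraph MeasureTheory

namespace Vale.Agent.P143

theorem iidLaw_finset {ι β κ : Type*} (J : Finset β) (φ : β → κ → ι)
    (hφ : ∀ c ∈ J, ∀ c' ∈ J, ∀ g g', φ c g = φ c' g' → c = c' ∧ g = g')
    (F : β → Set (κ → unitInterval)) (hF : ∀ c, MeasurableSet (F c)) :
    iidLaw ι {ω | ∀ c ∈ J, (fun g => ω (φ c g)) ∈ F c} = ∏ c ∈ J, iidLaw κ (F c) := by
  have := iidLaw_blocks (K := ↥J) (κ := fun _ => κ) (fun p => φ p.1 p.2) (by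
     rintro ⟨⟨c, hc⟩, g⟩ ⟨⟨c', hc'⟩, g'⟩ h
     obtain ⟨rfl, rfl⟩ := hφ c hc c' hc' g g' h
     rfl) (fun k => F k) (fun k => hF k)
  rw [Finset.prod_coe_sort J (fun c => iidLaw κ (F c))] at this
  rw [← this]
  congr 1
  ext ω
  simp

theorem measurableSet_finset {ι β κ : Type*} (J : Finset β) (φ : β → κ → ι)
    (F : β → Set (κ → unitInterval)) (hF : ∀ c, MeasurableSet (F c)) :
    MeasurableSet {ω : ι → unitInterval | ∀ c ∈ J, (fun g => ω (φ c g)) ∈ F c} := by
  have : {ω : ι → unitInterval | ∀ c ∈ J, (fun g => ω (φ c g)) ∈ F c} =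
      ⋂ c ∈ J, (fun (ω : ι → unitInterval) g => ω (φ c g)) ⁻¹' F c := by
    ext ω; simp
  rw [this]
  refine Finset.measurableSet_biInter _ fun c _ => ?_
  have hm : Measurable (fun (ω : ι → unitInterval) g => ω (φ c g)) := by
    rw [measurable_pi_iff]
    intro g
    exact measurable_pi_apply _
  exact hm (hF c)

theorem iidLaw_pair {ι : Type*} (F₁ F₂ : Set (ι → unitInterval)) (h₁ : MeasurableSet F₁)
    (h₂ : MeasurableSet F₂) :
    iidLaw (ι × Bool) {W | (fun v => W (v, false)) ∈ F₁ ∧ (fun v => W (v, true)) ∈ F₂} =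
      iidLaw ι F₁ * iidLaw ι F₂ := by
  have := iidLaw_blocks (K := Bool) (κ := fun _ => ι) (fun p => (p.2, p.1)) (by
     rintro ⟨b, v⟩ ⟨b', v'⟩ h
     simp only [Prod.mk.injEq] at h
     obtain ⟨rfl, rfl⟩ := h
     rfl) (fun b => if b then F₂ else F₁) (by intro b; cases b <;> simp [h₁, h₂])
  rw [Fintype.prod_bool] at this
  simp only [if_true, Bool.false_eq_true, if_false] at this
  rw [mul_comm, ← this]
  congr 1
  ext W
  simp only [Set.mem_ofPred_eq, Bool.forall_bool, if_true, Bool.false_eq_true, if_false]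

theorem measurableSet_pair {ι : Type*} (F₁ F₂ : Set (ι → unitInterval)) (h₁ : MeasurableSet F₁)
    (h₂ : MeasurableSet F₂) :
    MeasurableSet {W : ι × Bool → unitInterval |
      (fun v => W (v, false)) ∈ F₁ ∧ (fun v => W (v, true)) ∈ F₂} := by
  have hm : ∀ b : Bool, Measurable (fun (W : ι × Bool → unitInterval) v => W (v, b)) := by
    intro b
    rw [measurable_pi_iff]
    intro g
    exact measurable_pi_apply _
  exact (hm false h₁).inter (hm true h₂)

theorem IsFUSF.null_nonedge {V : Type*} {G : SimpleGraph V} {μ : Measure (Set (Sym2 V))}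
    (h : IsFUSF G μ) {H : ℕ → G.Subgraph} (hH : IsExhaustion G H) {e : Sym2 V}
    (he : e ∉ G.edgeSet) : μ {ω | e ∈ ω} = 0 := by
  have h1 : {ω : Set (Sym2 V) | e ∈ ω} = cyl {e} {e} := by
    ext ω
    rw [mem_cyl_iff]
    simp
  have h2 := h.2 H hH {e} {e}
  have h3 : ∀ n, ustProb (H n) (cyl {e} {e}) = 0 := by
    intro n
    unfold ustProb
    have : {T | IsSpanningTree (H n) T ∧ T.edgeSet ∈ cyl {e} {e}} = ∅ := by
      ext T
      simp only [Set.mem_ofPred_eq, Set.mem_empty_iff_false, iff_false, not_and]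
      intro hT hmem
      rw [← h1] at hmem
      exact he (edgeSet_mono (hT.1.trans (H n).spanningCoe_le) hmem)
    rw [this]
    simp
  simp only [h3] at h2
  have h4 := tendsto_nhds_unique h2 tendsto_const_nhds
  haveI := h.1
  rw [h1]
  exact ((ENNReal.toReal_eq_zero_iff _).mp h4).resolve_right (measure_ne_top _ _)

theorem IsFUSF.measure_inter_edges {V : Type*} {G : SimpleGraph V} {μ : Measure (Set (Sym2 V))}
    (h : IsFUSF G μ) {H : ℕ → G.Subgraph} (hH : IsExhaustion G H) (K P : Finset (Sym2 V)) :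
    μ {ω | ω ∩ G.edgeSet ∈ cyl K P} = μ (cyl K P) := by
  have hae : ∀ᵐ ω ∂μ, ∀ e ∈ (K : Set (Sym2 V)), e ∉ G.edgeSet → e ∉ ω := by
    rw [ae_ball_iff K.countable_toSet]
    intro e _
    by_cases he : e ∈ G.edgeSet
    · simp [he]
    · have := h.null_nonedge hH he
      rw [measure_eq_zero_iff_ae_notMem] at this
      filter_upwards [this] with ω hω _
      exact hω
  apply measure_congr
  filter_upwards [hae] with ω hω
  apply propext
  show (ω ∩ G.edgeSet ∈ cyl K P) ↔ ω ∈ cyl K P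
  rw [mem_cyl_iff, mem_cyl_iff]
  have : ∀ e ∈ K, (e ∈ ω ∩ G.edgeSet ↔ e ∈ ω) := by
    intro e he
    have := hω e he
    simp only [Set.mem_inter_iff]
    tauto
  constructor
  · rintro ⟨a1, a2⟩
    exact ⟨a1, fun e he => by rw [← this e he]; exact a2 e he⟩
  · rintro ⟨a1, a2⟩
    exact ⟨a1, fun e he => by rw [this e he]; exact a2 e he⟩

theorem measurableSet_inter_cyl {V : Type*} (E : Set (Sym2 V)) (K P : Finset (Sym2 V)) :
    MeasurableSet {ω : Set (Sym2 V) | ω ∩ E ∈ cyl K P} := by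
  have hm : Measurable (fun ω : Set (Sym2 V) => ω ∩ E) := by
    rw [measurable_set_iff]
    intro e
    simp only [Set.mem_inter_iff]
    exact (measurable_set_mem e).and measurable_const
  exact hm (measurableSet_cyl K P)

variable {Γ A B : Type*} [Group Γ] [Group A] [Group B]

theorem rep_inj {ι : A →* Γ} (hι : Function.Injective ι) (c c' : Γ ⧸ ι.range) (g g' : A)
    (h : rep ι c * ι g = rep ι c' * ι g') : c = c' ∧ g = g' := by
  have hc : c = c' := by
    by_contra hne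
    apply rep_ne ι hne
    refine ⟨g * g'⁻¹, ?_⟩
    rw [map_mul, map_inv, eq_inv_mul_iff_mul_eq, ← mul_assoc, h]; group
  subst hc
  exact ⟨rfl, hι (mul_left_cancel h)⟩

namespace TwoFactors

variable {ιA : A →* Γ} {hdA : Γ → A} {ιB : B →* Γ} {hdB : Γ → B} {S : Set Γ}
  {SA : Set A} {SB : Set B} (t : TwoFactors ιA hdA ιB hdB S SA SB)
  {ΦA : (A → unitInterval) → Set (Sym2 A)} {ΦB : (B → unitInterval) → Set (Sym2 B)}
include t

theorem measure_cyl (hA : Equivar ΦA) (hB : Equivar ΦB) (mA : Measurable ΦA)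
    (mB : Measurable ΦB) {K P : Finset (Sym2 Γ)} (hPK : P ⊆ K)
    (hC : ∀ e ∈ K, e ∉ (mulCayley S).edgeSet → e ∉ P)
    {JA : Finset (Γ ⧸ ιA.range)} (hJA : ∀ e ∈ K, ∀ c e₀, e = emap ιA c e₀ → c ∈ JA)
    {JB : Finset (Γ ⧸ ιB.range)} (hJB : ∀ e ∈ K, ∀ c e₀, e = emap ιB c e₀ → c ∈ JB) :
    (iidLaw Γ).map (prodF ιA ιB SA SB ΦA ΦB) (cyl K P) =
      (∏ c ∈ JA, (iidLaw A).map ΦA {ω | ω ∩ (mulCayley SA).edgeSet ∈
        cyl (K.preimage _ (t.emapA_inj c).injOn) (P.preimage _ (t.emapA_inj c).injOn)}) *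
      ∏ d ∈ JB, (iidLaw B).map ΦB {ω | ω ∩ (mulCayley SB).edgeSet ∈
        cyl (K.preimage _ (t.emapB_inj d).injOn) (P.preimage _ (t.emapB_inj d).injOn)} := by
  rw [Measure.map_apply (t.measurable_prodF hA hB mA mB) (measurableSet_cyl K P)]
  set FA : (Γ ⧸ ιA.range) → Set (A → unitInterval) := fun c =>
    ΦA ⁻¹' {ω | ω ∩ (mulCayley SA).edgeSet ∈
        cyl (K.preimage _ (t.emapA_inj c).injOn) (P.preimage _ (t.emapA_inj c).injOn)} with hFA
  set FB : (Γ ⧸ ιB.range) → Set (B → unitInterval) := fun d =>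
    ΦB ⁻¹' {ω | ω ∩ (mulCayley SB).edgeSet ∈
        cyl (K.preimage _ (t.emapB_inj d).injOn) (P.preimage _ (t.emapB_inj d).injOn)} with hFB
  have mFA : ∀ c, MeasurableSet (FA c) := fun c => mA (measurableSet_inter_cyl _ _ _)
  have mFB : ∀ d, MeasurableSet (FB d) := fun d => mB (measurableSet_inter_cyl _ _ _)
  set F₁ : Set (Γ → unitInterval) := {V | ∀ c ∈ JA, (fun g => V (rep ιA c * ιA g)) ∈ FA c} with hF₁
  set F₂ : Set (Γ → unitInterval) := {V | ∀ d ∈ JB, (fun g => V (rep ιB d * ιB g)) ∈ FB d} with hF₂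
  have mF₁ : MeasurableSet F₁ := measurableSet_finset JA (fun c g => rep ιA c * ιA g) FA mFA
  have mF₂ : MeasurableSet F₂ := measurableSet_finset JB (fun c g => rep ιB c * ιB g) FB mFB
  have hpre : prodF ιA ιB SA SB ΦA ΦB ⁻¹' cyl K P =
      splitL ⁻¹' {W | (fun v => W (v, false)) ∈ F₁ ∧ (fun v => W (v, true)) ∈ F₂} := by
    ext U
    rw [Set.mem_preimage, t.mem_cyl_decomp hPK hC hJA hJB (t.prodF_subset U)]
    have eA : ∀ c, emap ιA c ⁻¹' prodF ιA ιB SA SB ΦA ΦB U =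
        ΦA (lab ιA false (splitL U) (rep ιA c)) ∩ (mulCayley SA).edgeSet := by
      intro c
      ext e₀
      exact t.mem_prodF_A hA U (rep ιA c) e₀
    have eB : ∀ d, emap ιB d ⁻¹' prodF ιA ιB SA SB ΦA ΦB U =
        ΦB (lab ιB true (splitL U) (rep ιB d)) ∩ (mulCayley SB).edgeSet := by
      intro d
      ext e₀
      exact t.mem_prodF_B hB U (rep ιB d) e₀
    simp only [eA, eB]
    rfl
  rw [hpre, ← Measure.map_apply measurable_splitL (measurableSet_pair F₁ F₂ mF₁ mF₂), map_splitL,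
    iidLaw_pair F₁ F₂ mF₁ mF₂, hF₁, hF₂,
    iidLaw_finset JA (fun c g => rep ιA c * ιA g)
      (fun c _ c' _ g g' h => rep_inj t.fA.inj c c' g g' h) FA mFA,
    iidLaw_finset JB (fun c g => rep ιB c * ιB g)
      (fun c _ c' _ g g' h => rep_inj t.fB.inj c c' g g' h) FB mFB]
  congr 1
  · refine Finset.prod_congr rfl fun c _ => ?_
    rw [Measure.map_apply mA (measurableSet_inter_cyl _ _ _)]
  · refine Finset.prod_congr rfl fun c _ => ?_
    rw [Measure.map_apply mB (measurableSet_inter_cyl _ _ _)]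

theorem measure_cyl_zero (hA : Equivar ΦA) (hB : Equivar ΦB) (mA : Measurable ΦA)
    (mB : Measurable ΦB) {K P : Finset (Sym2 Γ)}
    (hC : ¬ (P ⊆ K ∧ ∀ e ∈ K, e ∉ (mulCayley S).edgeSet → e ∉ P)) :
    (iidLaw Γ).map (prodF ιA ιB SA SB ΦA ΦB) (cyl K P) = 0 := by
  rw [Measure.map_apply (t.measurable_prodF hA hB mA mB) (measurableSet_cyl K P)]
  have : prodF ιA ιB SA SB ΦA ΦB ⁻¹' cyl K P = ∅ := by
    ext U
    simp only [Set.mem_preimage, Set.mem_empty_iff_false, iff_false]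
    exact t.not_mem_cyl hC (t.prodF_subset U)
  rw [this]
  simp

end TwoFactors

end Vale.Agent.P143
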