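import Vale.Agent.Lib.P143.Meas

/-!
# P143: independence of blocks of labels, splitting of labels
-/

open MeasureTheory ProbabilityTheory

namespace Vale.Agent.P143

/-- Independence of the labels of finitely many disjoint blocks of coordinates. -/
theorem iidLaw_blocks {ι : Type*} {K : Type*} [Fintype K] {κ : K → Type*}
    (φ : (Σ k, κ k) → ι) (hφ : Function.Injective φ)
    (F : ∀ k, Set (κ k → unitInterval)) (hF : ∀ k, MeasurableSet (F k)) :
    iidLaw ι {ω | ∀ k, (fun g => ω (φ ⟨k, g⟩)) ∈ F k} = ∏ k, iidLaw (κ k) (F k) := by
  have h1 : (iidLaw ι).map (fun ω (p : Σ k, κ k) => ω (φ p)) = iidLaw (Σ k, κ k) :=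
    Measure.map_infinitePi_infinitePi_of_inj (P := fun _ : ι => (volume : Measure unitInterval)) hφ
  have h2 : (iidLaw (Σ k, κ k)).map (MeasurableEquiv.piCurry (fun (k : K) (_ : κ k) => unitInterval)) =
      Measure.infinitePi (fun k => iidLaw (κ k)) :=
    Measure.infinitePi_map_piCurry (fun (k : K) (_ : κ k) => (volume : Measure unitInterval))
  have h3 : {ω : ι → unitInterval | ∀ k, (fun g => ω (φ ⟨k, g⟩)) ∈ F k} =
      (fun ω (p : Σ k, κ k) => ω (φ p)) ⁻¹'
        ((MeasurableEquiv.piCurry (fun (k : K) (_ : κ k) => unitInterval)) ⁻¹'
          (Set.pi (Finset.univ : Finset K) F)) := by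
    ext ω
    simp only [Set.mem_ofPred_eq, Set.mem_preimage, Set.mem_pi, Finset.coe_univ, Set.mem_univ,
      forall_true_left]
    rfl
  have hm : MeasurableSet (Set.pi (↑(Finset.univ : Finset K)) F) :=
    MeasurableSet.pi (Finset.countable_toSet _) (fun k _ => hF k)
  rw [h3, ← Measure.map_apply (by fun_prop) ((MeasurableEquiv.measurable _) hm), h1,
    ← Measure.map_apply (MeasurableEquiv.measurable _) hm, h2,
    Measure.infinitePi_pi _ (fun k _ => hF k)]

/-- Splitting a uniform label into two independent uniform labels. -/
theorem exists_split : ∃ σ : unitInterval → (Bool → unitInterval), Measurable σ ∧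
    (volume : Measure unitInterval).map σ = iidLaw Bool :=
  Measure.exists_measurable_map_eq (iidLaw Bool)

/-- The splitting map. -/
noncomputable def sig : unitInterval → (Bool → unitInterval) := Classical.choose exists_split

theorem measurable_sig : Measurable sig := (Classical.choose_spec exists_split).1

theorem map_sig : (volume : Measure unitInterval).map sig = iidLaw Bool :=
  (Classical.choose_spec exists_split).2

/-- Splitting all labels. -/
noncomputable def splitL {V : Type*} (U : V → unitInterval) : V × Bool → unitInterval :=
  fun p => sig (U p.1) p.2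

theorem measurable_splitL {V : Type*} : Measurable (splitL (V := V)) := by
  rw [measurable_pi_iff]
  intro p
  exact (measurable_pi_apply p.2).comp (measurable_sig.comp (measurable_pi_apply p.1))

theorem map_splitL {V : Type*} : (iidLaw V).map splitL = iidLaw (V × Bool) := by
  have h1 : (iidLaw V).map (fun U v => sig (U v)) = Measure.infinitePi (fun _ : V => iidLaw Bool) := by
    have := Measure.infinitePi_map_pi (fun _ : V => (volume : Measure unitInterval))
      (f := fun _ => sig) (fun _ => measurable_sig)
    simp only [map_sig] at this
    exact this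
  have h2 := Measure.infinitePi_map_curry_symm
    (fun (_ : V) (_ : Bool) => (volume : Measure unitInterval))
  have h3 : (splitL (V := V)) =
      (MeasurableEquiv.curry V Bool unitInterval).symm ∘ (fun U v => sig (U v)) := by
    funext U p
    rfl
  rw [h3, ← Measure.map_map (MeasurableEquiv.measurable _) (by
    rw [measurable_pi_iff]; intro v; exact measurable_sig.comp (measurable_pi_apply v)), h1]
  exact h2

end Vale.Agent.P143
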