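import Vale.Agent.Lib.P143.Factors
import Vale.Agent.Lib.P143.Split

/-!
# P143: running a factor map in every coset of a free factor
-/

open SimpleGraph MeasureTheory

namespace Vale.Agent.P143

variable {Γ A : Type*} [Group Γ] [Group A]

/-- The labels (of type `c`) of the coset `x * ι A`, read in `A`. -/
def lab (ι : A →* Γ) (c : Bool) (W : Γ × Bool → unitInterval) (x : Γ) : A → unitInterval :=
  fun g => W (x * ι g, c)

/-- The configuration obtained by running `Φ₀` in every coset of the factor. -/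
def partF (ι : A →* Γ) (S₀ : Set A) (Φ₀ : (A → unitInterval) → Set (Sym2 A)) (c : Bool)
    (W : Γ × Bool → unitInterval) : Set (Sym2 Γ) :=
  {e | ∃ x e₀, e₀ ∈ Φ₀ (lab ι c W x) ∧ e₀ ∈ (mulCayley S₀).edgeSet ∧
    e = Sym2.map (fun g => x * ι g) e₀}

theorem measurable_lab (ι : A →* Γ) (c : Bool) (x : Γ) :
    Measurable (fun W : Γ × Bool → unitInterval => lab ι c W x) := by
  rw [measurable_pi_iff]
  intro g
  exact measurable_pi_apply _

theorem edgeSet_mulCayley_map (S₀ : Set A) (h : A) (e : Sym2 A) :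
    Sym2.map (fun v => h * v) e ∈ (mulCayley S₀).edgeSet ↔ e ∈ (mulCayley S₀).edgeSet := by
  induction e using Sym2.ind with
  | _ x y => simp

namespace Factor

variable {ι : A →* Γ} {hd : Γ → A} {S : Set Γ} {S₀ : Set A} (f : Factor ι hd S S₀)
include f

theorem map_inj (x : Γ) : Function.Injective (Sym2.map (fun g => x * ι g)) :=
  Sym2.map.injective (fun _ _ h => f.inj (mul_left_cancel h))

theorem mem_partF_iff {Φ₀ : (A → unitInterval) → Set (Sym2 A)}
    (hEq : ∀ (γ : A) (W : A → unitInterval),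
      Φ₀ (fun v => W (γ⁻¹ * v)) = Sym2.map (fun v => γ * v) '' Φ₀ W)
    (c : Bool) (W : Γ × Bool → unitInterval) (x : Γ) (e₀ : Sym2 A) :
    Sym2.map (fun g => x * ι g) e₀ ∈ partF ι S₀ Φ₀ c W ↔
      e₀ ∈ Φ₀ (lab ι c W x) ∧ e₀ ∈ (mulCayley S₀).edgeSet := by
  constructor
  · rintro ⟨x', e₀', h1, h2, h3⟩
    -- x and x' are in the same coset
    have hcoset : ∃ h : A, x' = x * ι h := by
      induction e₀ using Sym2.ind with
      | _ g g' =>
        induction e₀' using Sym2.ind with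
        | _ a a' =>
          simp only [Sym2.map_mk] at h3
          rcases Sym2.eq_iff.mp h3 with ⟨h4, _⟩ | ⟨h4, _⟩
          · refine ⟨g * a⁻¹, ?_⟩
            rw [map_mul, map_inv, ← mul_assoc, h4]; group
          · refine ⟨g * a'⁻¹, ?_⟩
            rw [map_mul, map_inv, ← mul_assoc, h4]; group
    obtain ⟨h, rfl⟩ := hcoset
    have hmap : Sym2.map (fun g => x * ι h * ι g) e₀' =
        Sym2.map (fun g => x * ι g) (Sym2.map (fun v => h * v) e₀') := by
      rw [Sym2.map_map]
      congr 1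
      funext g
      simp [mul_assoc]
    rw [hmap] at h3
    have h5 := f.map_inj x h3
    have hlab : lab ι c W (x * ι h) = fun v => lab ι c W x (h⁻¹⁻¹ * v) := by
      funext v
      simp [lab, mul_assoc]
    rw [hlab, hEq] at h1
    obtain ⟨e₁, he₁, rfl⟩ := h1
    have h6 : e₀ = e₁ := by
      rw [h5, Sym2.map_map]
      have : ((fun v => h * v) ∘ fun v => h⁻¹ * v) = id := by funext v; simp
      rw [this, Sym2.map_id]; rfl
    rw [h6]
    refine ⟨he₁, ?_⟩
    exact (edgeSet_mulCayley_map S₀ h⁻¹ e₁).mp h2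
  · rintro ⟨h1, h2⟩
    exact ⟨x, e₀, h1, h2, rfl⟩

theorem not_mem_partF_other {B : Type*} [Group B] {ι' : B →* Γ}
    (htriv : ∀ a b, ι a = ι' b → b = 1)
    (Φ₀ : (A → unitInterval) → Set (Sym2 A)) (c : Bool) (W : Γ × Bool → unitInterval)
    (y : Γ) (e₁ : Sym2 B) : Sym2.map (fun g => y * ι' g) e₁ ∉ partF ι S₀ Φ₀ c W := by
  rintro ⟨x, e₀, _, h2, h3⟩
  induction e₀ using Sym2.ind with
  | _ a a' =>
    induction e₁ using Sym2.ind with
    | _ k k' =>
      have hne : a ≠ a' := (show (mulCayley S₀).Adj a a' from h2).ne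
      simp only [Sym2.map_mk] at h3
      have key : ∀ k k' : B, y * ι' k = x * ι a → y * ι' k' = x * ι a' → False := by
        intro k k' h4 h5
        have h6 : ι (a⁻¹ * a') = ι' (k⁻¹ * k') := by
          rw [map_mul, map_mul, map_inv, map_inv]
          have e1 : ι a = x⁻¹ * (y * ι' k) := by rw [h4]; group
          have e2 : ι a' = x⁻¹ * (y * ι' k') := by rw [h5]; group
          rw [e1, e2]; group
        have h7 := htriv _ _ h6
        rw [h7, map_one] at h6
        have h8 : a⁻¹ * a' = 1 := f.inj (by rw [h6, map_one])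
        exact hne (inv_mul_eq_one.mp h8)
      rcases Sym2.eq_iff.mp h3 with ⟨h4, h5⟩ | ⟨h4, h5⟩
      · exact key k k' h4 h5
      · exact key k' k h5 h4

theorem partF_subset (Φ₀ : (A → unitInterval) → Set (Sym2 A)) (c : Bool)
    (W : Γ × Bool → unitInterval) : partF ι S₀ Φ₀ c W ⊆ (mulCayley S).edgeSet := by
  rintro e ⟨x, e₀, _, h2, rfl⟩
  induction e₀ using Sym2.ind with
  | _ a a' => exact ((f.block x).adj_iff a a').mpr h2

end Factor

theorem partF_equivariant (ι : A →* Γ) (S₀ : Set A) (Φ₀ : (A → unitInterval) → Set (Sym2 A))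
    (c : Bool) (γ : Γ) (W : Γ × Bool → unitInterval) :
    partF ι S₀ Φ₀ c (fun p => W (γ⁻¹ * p.1, p.2)) =
      Sym2.map (fun v => γ * v) '' partF ι S₀ Φ₀ c W := by
  have hlab : ∀ x, lab ι c (fun p => W (γ⁻¹ * p.1, p.2)) x = lab ι c W (γ⁻¹ * x) := by
    intro x; funext g; simp [lab, mul_assoc]
  ext e
  constructor
  · rintro ⟨x, e₀, h1, h2, rfl⟩
    rw [hlab] at h1
    refine ⟨Sym2.map (fun g => γ⁻¹ * x * ι g) e₀, ⟨_, e₀, h1, h2, rfl⟩, ?_⟩
    rw [Sym2.map_map]
    congr 1
    funext g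
    simp [mul_assoc]
  · rintro ⟨_, ⟨x, e₀, h1, h2, rfl⟩, rfl⟩
    refine ⟨γ * x, e₀, ?_, h2, ?_⟩
    · rw [hlab]; simpa using h1
    · rw [Sym2.map_map]
      congr 1
      funext g
      simp [mul_assoc]

end Vale.Agent.P143
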