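import Vale.Agent.Lib.P143.PartF

/-!
# P143: the factor map on a group with two free factors
-/

open SimpleGraph MeasureTheory

namespace Vale.Agent.P143

variable {Γ A B : Type*} [Group Γ] [Group A] [Group B]

/-- The factor map on the free product built from factor maps on the two factors. -/
noncomputable def prodF (ιA : A →* Γ) (ιB : B →* Γ) (SA : Set A) (SB : Set B)
    (ΦA : (A → unitInterval) → Set (Sym2 A)) (ΦB : (B → unitInterval) → Set (Sym2 B))
    (U : Γ → unitInterval) : Set (Sym2 Γ) :=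
  partF ιA SA ΦA false (splitL U) ∪ partF ιB SB ΦB true (splitL U)

/-- The data of two free factors generating the Cayley graph. -/
structure TwoFactors (ιA : A →* Γ) (hdA : Γ → A) (ιB : B →* Γ) (hdB : Γ → B) (S : Set Γ)
    (SA : Set A) (SB : Set B) : Prop where
  fA : Factor ιA hdA S SA
  fB : Factor ιB hdB S SB
  triv : ∀ a b, ιA a = ιB b → a = 1 ∧ b = 1
  cover : ∀ s ∈ S, s ∈ Set.range ιA ∨ s ∈ Set.range ιB

/-- Equivariance of a map from labellings to edge configurations. -/
def Equivar {A : Type*} [Group A] (Φ : (A → unitInterval) → Set (Sym2 A)) : Prop :=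
  ∀ (γ : A) (W : A → unitInterval), Φ (fun v => W (γ⁻¹ * v)) = Sym2.map (fun v => γ * v) '' Φ W

namespace TwoFactors

variable {ιA : A →* Γ} {hdA : Γ → A} {ιB : B →* Γ} {hdB : Γ → B} {S : Set Γ}
  {SA : Set A} {SB : Set B} (t : TwoFactors ιA hdA ιB hdB S SA SB)
  {ΦA : (A → unitInterval) → Set (Sym2 A)} {ΦB : (B → unitInterval) → Set (Sym2 B)}
include t

theorem mem_prodF_A (hA : Equivar ΦA) (U : Γ → unitInterval) (x : Γ) (e₀ : Sym2 A) :
    Sym2.map (fun g => x * ιA g) e₀ ∈ prodF ιA ιB SA SB ΦA ΦB U ↔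
      e₀ ∈ ΦA (lab ιA false (splitL U) x) ∧ e₀ ∈ (mulCayley SA).edgeSet := by
  unfold prodF
  rw [Set.mem_union, t.fA.mem_partF_iff hA]
  constructor
  · rintro (h | h)
    · exact h
    · exact absurd h (t.fB.not_mem_partF_other (fun b a hh => (t.triv a b hh.symm).1) _ _ _ _ _)
  · exact Or.inl

theorem mem_prodF_B (hB : Equivar ΦB) (U : Γ → unitInterval) (y : Γ) (e₀ : Sym2 B) :
    Sym2.map (fun g => y * ιB g) e₀ ∈ prodF ιA ιB SA SB ΦA ΦB U ↔
      e₀ ∈ ΦB (lab ιB true (splitL U) y) ∧ e₀ ∈ (mulCayley SB).edgeSet := by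
  unfold prodF
  rw [Set.mem_union, t.fB.mem_partF_iff hB]
  constructor
  · rintro (h | h)
    · exact absurd h (t.fA.not_mem_partF_other (fun a b hh => (t.triv a b hh).2) _ _ _ _ _)
    · exact h
  · exact Or.inr

theorem prodF_subset (U : Γ → unitInterval) :
    prodF ιA ιB SA SB ΦA ΦB U ⊆ (mulCayley S).edgeSet :=
  Set.union_subset (t.fA.partF_subset _ _ _) (t.fB.partF_subset _ _ _)

theorem measurable_prodF (hA : Equivar ΦA) (hB : Equivar ΦB) (mA : Measurable ΦA)
    (mB : Measurable ΦB) : Measurable (prodF ιA ιB SA SB ΦA ΦB) := by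
  rw [measurable_set_iff]
  intro e
  by_cases h1 : ∃ x e₀, e = Sym2.map (fun g => x * ιA g) e₀
  · obtain ⟨x, e₀, rfl⟩ := h1
    simp only [t.mem_prodF_A hA]
    refine Measurable.and ?_ measurable_const
    exact (measurable_set_mem e₀).comp
      (mA.comp ((measurable_lab ιA false x).comp measurable_splitL))
  by_cases h2 : ∃ y e₀, e = Sym2.map (fun g => y * ιB g) e₀
  · obtain ⟨y, e₀, rfl⟩ := h2
    simp only [t.mem_prodF_B hB]
    refine Measurable.and ?_ measurable_const
    exact (measurable_set_mem e₀).comp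
      (mB.comp ((measurable_lab ιB true y).comp measurable_splitL))
  · have : ∀ U, ¬ (e ∈ prodF ιA ιB SA SB ΦA ΦB U) := by
      rintro U (⟨x, e₀, _, _, rfl⟩ | ⟨y, e₀, _, _, rfl⟩)
      · exact h1 ⟨x, e₀, rfl⟩
      · exact h2 ⟨y, e₀, rfl⟩
    simp only [this]
    exact measurable_const

end TwoFactors

theorem prodF_equivariant (ιA : A →* Γ) (ιB : B →* Γ) (SA : Set A) (SB : Set B)
    (ΦA : (A → unitInterval) → Set (Sym2 A)) (ΦB : (B → unitInterval) → Set (Sym2 B)) :
    Equivar (prodF ιA ιB SA SB ΦA ΦB) := by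
  intro γ U
  have hs : splitL (fun v => U (γ⁻¹ * v)) = fun p => splitL U (γ⁻¹ * p.1, p.2) := rfl
  unfold prodF
  rw [hs, partF_equivariant, partF_equivariant, Set.image_union]

end Vale.Agent.P143
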