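import Vale.Agent.Lib.P143.Finite

/-!
# P143: Cayley graphs that are trees, the integers
-/

open SimpleGraph MeasureTheory ProbabilityTheory Filter Topology
open scoped Classical

namespace Vale.Agent.P143

section general
variable {V : Type*} {G : SimpleGraph V}

theorem spanningTree_of_acyclic (hac : G.IsAcyclic) {H : G.Subgraph} {T : SimpleGraph V}
    (hT : IsSpanningTree H T) : T = H.spanningCoe := by
  apply le_antisymm hT.1
  intro u v huv
  have hH : H.Adj u v := huv
  by_contra hn
  have hbr : ¬ (G.deleteEdges {s(u, v)}).Reachable u v :=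
    isBridge_iff.mp (isAcyclic_iff_forall_adj_isBridge.mp hac hH.adj_sub)
  apply hbr
  refine (hT.2.2 u (H.edge_vert hH) v (H.edge_vert hH.symm)).mono ?_
  intro x y hxy
  rw [deleteEdges_adj]
  refine ⟨(hT.1.trans H.spanningCoe_le) hxy, ?_⟩
  intro he
  simp only [Set.mem_singleton_iff] at he
  rcases Sym2.eq_iff.mp he with ⟨rfl, rfl⟩ | ⟨rfl, rfl⟩
  · exact hn hxy
  · exact hn hxy.symm

theorem ustProb_of_acyclic (hac : G.IsAcyclic) (H : G.Subgraph) (hc : H.Connected)
    (E : Set (Set (Sym2 V))) :
    ustProb H E = if H.spanningCoe.edgeSet ∈ E then 1 else 0 := by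
  obtain ⟨T₀, hT₀⟩ := exists_spanningTree' H hc
  have h0 : IsSpanningTree H H.spanningCoe := by
    rw [← spanningTree_of_acyclic hac hT₀]; exact hT₀
  have h1 : {T | IsSpanningTree H T} = {H.spanningCoe} := by
    ext T
    simp only [Set.mem_ofPred_eq, Set.mem_singleton_iff]
    exact ⟨fun h => spanningTree_of_acyclic hac h, fun h => h ▸ h0⟩
  unfold ustProb
  rw [h1]
  split_ifs with hE
  · have : {T | IsSpanningTree H T ∧ T.edgeSet ∈ E} = {H.spanningCoe} := by
      ext T
      simp only [Set.mem_ofPred_eq, Set.mem_singleton_iff]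
      exact ⟨fun h => spanningTree_of_acyclic hac h.1, fun h => h ▸ ⟨h0, hE⟩⟩
    rw [this]
    simp
  · have : {T | IsSpanningTree H T ∧ T.edgeSet ∈ E} = ∅ := by
      ext T
      simp only [Set.mem_ofPred_eq, Set.mem_empty_iff_false, iff_false, not_and]
      intro h
      rw [spanningTree_of_acyclic hac h]
      exact hE
    rw [this]
    simp

theorem eventually_inter_eq {H : ℕ → G.Subgraph} (hH : IsExhaustion G H) (K : Finset (Sym2 V)) :
    ∀ᶠ n in atTop, ∀ e ∈ K, (e ∈ (H n).spanningCoe.edgeSet ↔ e ∈ G.edgeSet) := by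
  rw [Filter.eventually_all_finset]
  intro e _
  induction e using Sym2.ind with
  | _ x y =>
    by_cases hxy : G.Adj x y
    · have h2 : (⨆ n, H n).Adj x y := by rw [hH.union]; exact hxy
      rw [Subgraph.iSup_adj] at h2
      obtain ⟨n₀, hn₀⟩ := h2
      filter_upwards [Filter.eventually_ge_atTop n₀] with n hn
      exact ⟨fun _ => hxy, fun _ => (hH.mono hn).2 hn₀⟩
    · refine Filter.Eventually.of_forall fun n => ?_
      exact ⟨fun h => ((H n).spanningCoe_le (show (H n).spanningCoe.Adj x y from h)),
        fun h => absurd h hxy⟩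

theorem isFUSF_of_acyclic (hac : G.IsAcyclic) :
    IsFUSF G ((iidLaw V).map (fun _ => G.edgeSet)) := by
  refine ⟨Measure.isProbabilityMeasure_map measurable_const.aemeasurable, ?_⟩
  intro H hH K P
  rw [Measure.map_apply measurable_const (measurableSet_cyl K P)]
  have hlim : ((iidLaw V) ((fun _ => G.edgeSet) ⁻¹' cyl K P)).toReal =
      if G.edgeSet ∈ cyl K P then 1 else 0 := by
    split_ifs with h
    · have : (fun _ : V → unitInterval => G.edgeSet) ⁻¹' cyl K P = Set.univ := by ext; simp [h]
      rw [this]; simp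
    · have : (fun _ : V → unitInterval => G.edgeSet) ⁻¹' cyl K P = ∅ := by ext; simp [h]
      rw [this]; simp
  rw [hlim]
  apply tendsto_const_nhds.congr'
  filter_upwards [eventually_inter_eq hH K] with n hn
  rw [ustProb_of_acyclic hac (H n) (hH.connected n)]
  have : (H n).spanningCoe.edgeSet ∈ cyl K P ↔ G.edgeSet ∈ cyl K P := by
    rw [mem_cyl_iff, mem_cyl_iff]
    constructor
    · rintro ⟨a1, a2⟩
      exact ⟨a1, fun e he => by rw [← hn e he]; exact a2 e he⟩
    · rintro ⟨a1, a2⟩
      exact ⟨a1, fun e he => by rw [hn e he]; exact a2 e he⟩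
  simp only [this]

end general

theorem fusf_acyclic {A : Type*} [Group A] (S : Set A) (hac : (mulCayley S).IsAcyclic) :
    ∃ μ : Measure (Set (Sym2 A)), IsFUSF (mulCayley S) μ ∧ IsFactorOfIID A μ := by
  refine ⟨_, isFUSF_of_acyclic hac, fun _ => (mulCayley S).edgeSet, measurable_const, ?_, rfl⟩
  intro γ _
  ext e
  constructor
  · intro he
    refine ⟨Sym2.map (fun v => γ⁻¹ * v) e, (edgeSet_mulCayley_map S γ⁻¹ e).mpr he, ?_⟩
    rw [Sym2.map_map]
    have : ((fun v => γ * v) ∘ fun x => γ⁻¹ * x) = id := by funext x; simp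
    rw [this, Sym2.map_id]; rfl
  · rintro ⟨e', he', rfl⟩
    exact (edgeSet_mulCayley_map S γ e').mpr he'

theorem int_acyclic :
    (mulCayley ({Multiplicative.ofAdd (1 : ℤ)} : Set (Multiplicative ℤ))).IsAcyclic := by
  have hadj : ∀ x y : Multiplicative ℤ,
      (mulCayley ({Multiplicative.ofAdd (1 : ℤ)} : Set (Multiplicative ℤ))).Adj x y →
      Multiplicative.toAdd y = Multiplicative.toAdd x + 1 ∨
      Multiplicative.toAdd x = Multiplicative.toAdd y + 1 := by
    intro x y h
    rw [mulCayley_adj'] at h
    obtain ⟨_, g, hg, h1 | h1⟩ := h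
    · rw [Set.mem_singleton_iff] at hg
      subst hg
      left
      rw [← h1]; simp
    · rw [Set.mem_singleton_iff] at hg
      subst hg
      right
      rw [h1]; simp
  rw [isAcyclic_iff_forall_adj_isBridge]
  intro u v huv
  rw [isBridge_iff]
  intro hreach
  -- the smaller endpoint
  set m : ℤ := min (Multiplicative.toAdd u) (Multiplicative.toAdd v) with hm
  have key : ∀ x y, ((mulCayley ({Multiplicative.ofAdd (1 : ℤ)} : Set (Multiplicative ℤ))).deleteEdges
      {s(u, v)}).Reachable x y → (Multiplicative.toAdd x ≤ m ↔ Multiplicative.toAdd y ≤ m) := by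
    intro x y hxy
    obtain ⟨p⟩ := hxy
    induction p with
    | nil => exact Iff.rfl
    | @cons x y z h _ ih =>
      refine Iff.trans ?_ ih
      rw [deleteEdges_adj] at h
      obtain ⟨h1, h2⟩ := h
      simp only [Set.mem_singleton_iff] at h2
      have hne : ¬ ((x = u ∧ y = v) ∨ (x = v ∧ y = u)) := fun hh => h2 (Sym2.eq_iff.mpr hh)
      have huv' := hadj u v huv
      have hxy' := hadj x y h1
      have ex : ∀ a b : Multiplicative ℤ, Multiplicative.toAdd a = Multiplicative.toAdd b → a = b :=
        fun a b h => Multiplicative.toAdd.injective h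
      constructor
      · intro hx
        by_contra hy
        apply hne
        rcases huv' with h3 | h3 <;> rcases hxy' with h4 | h4
        · left; exact ⟨ex _ _ (by omega), ex _ _ (by omega)⟩
        · omega
        · right; exact ⟨ex _ _ (by omega), ex _ _ (by omega)⟩
        · omega
      · intro hy
        by_contra hx
        apply hne
        rcases huv' with h3 | h3 <;> rcases hxy' with h4 | h4
        · omega
        · right; exact ⟨ex _ _ (by omega), ex _ _ (by omega)⟩
        · omega
        · left; exact ⟨ex _ _ (by omega), ex _ _ (by omega)⟩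
  have := key u v hreach
  rcases hadj u v huv with h3 | h3 <;> omega

theorem int_closure :
    Subgroup.closure ({Multiplicative.ofAdd (1 : ℤ)} : Set (Multiplicative ℤ)) = ⊤ := by
  rw [eq_top_iff]
  intro x _
  rw [Subgroup.mem_closure_singleton]
  exact ⟨Multiplicative.toAdd x, by
    rw [← ofAdd_zsmul]; simp⟩

end Vale.Agent.P143
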