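import Vale.Agent.Lib.P143.Decomp

/-!
# P143: the uniform spanning tree of a finite piece of the Cayley graph, on a cylinder event
-/

open SimpleGraph MeasureTheory

namespace Vale.Agent.P143

theorem finite_spanningTrees' {V : Type*} {G : SimpleGraph V} (H : G.Subgraph)
    (hfin : H.verts.Finite) : {T | IsSpanningTree H T}.Finite := by
  have hE : H.spanningCoe.edgeSet.Finite := by
    apply Set.Finite.subset ((hfin.prod hfin).image (fun p : V × V => s(p.1, p.2)))
    intro e he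
    induction e using Sym2.ind with
    | _ x y =>
      have hxy : H.Adj x y := by simpa using he
      exact ⟨(x, y), ⟨H.edge_vert hxy, H.edge_vert hxy.symm⟩, rfl⟩
  have : {T : SimpleGraph V | T ≤ H.spanningCoe}.Finite := by
    apply Set.Finite.of_finite_image (f := edgeSet)
    · apply Set.Finite.subset hE.finite_subsets
      rintro _ ⟨T, hT, rfl⟩
      exact edgeSet_mono hT
    · exact fun _ _ _ _ hh => edgeSet_injective hh
  exact this.subset fun T hT => hT.1

theorem exists_spanningTree' {V : Type*} {G : SimpleGraph V} (H : G.Subgraph) (hc : H.Connected) :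
    ∃ T, IsSpanningTree H T := by
  obtain ⟨F, hF, hac, hre⟩ := H.spanningCoe.exists_isAcyclic_reachable_eq_le
  refine ⟨F, hF, hac, fun u hu v hv => ?_⟩
  rw [hre]
  exact reachable_of_connected hc hu hv

theorem ustP_true {V : Type*} {G : SimpleGraph V} (H : G.Subgraph) (hfin : H.verts.Finite)
    (hc : H.Connected) : ustP H (fun _ => True) = 1 := by
  unfold ustP
  simp only [and_true]
  obtain ⟨T, hT⟩ := exists_spanningTree' H hc
  have : {T | IsSpanningTree H T}.ncard ≠ 0 :=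
    Set.ncard_ne_zero_of_mem (a := T) hT (finite_spanningTrees' H hfin)
  exact div_self (by exact_mod_cast this)

variable {Γ A B : Type*} [Group Γ] [Group A] [Group B]

namespace TwoFactors

variable {ιA : A →* Γ} {hdA : Γ → A} {ιB : B →* Γ} {hdB : Γ → B} {S : Set Γ}
  {SA : Set A} {SB : Set B} (t : TwoFactors ιA hdA ιB hdB S SA SB)
include t

theorem ustProb_cyl (H : (mulCayley S).Subgraph) (hfin : H.verts.Finite) (hc : H.Connected)
    {K P : Finset (Sym2 Γ)} (hPK : P ⊆ K)
    (hC : ∀ e ∈ K, e ∉ (mulCayley S).edgeSet → e ∉ P)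
    {JA : Finset (Γ ⧸ ιA.range)} (hJA : ∀ e ∈ K, ∀ c e₀, e = emap ιA c e₀ → c ∈ JA)
    {JB : Finset (Γ ⧸ ιB.range)} (hJB : ∀ e ∈ K, ∀ c e₀, e = emap ιB c e₀ → c ∈ JB) :
    ustProb H (cyl K P) =
      (∏ c ∈ JA, ustProb (H.comap (t.fA.block (rep ιA c)).hom)
        (cyl (K.preimage _ (t.emapA_inj c).injOn) (P.preimage _ (t.emapA_inj c).injOn))) *
      ∏ d ∈ JB, ustProb (H.comap (t.fB.block (rep ιB d)).hom)
        (cyl (K.preimage _ (t.emapB_inj d).injOn) (P.preimage _ (t.emapB_inj d).injOn)) := by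
  set AA : (Γ ⧸ ιA.range) → SimpleGraph A → Prop := fun c T₀ =>
    T₀.edgeSet ∈ cyl (K.preimage _ (t.emapA_inj c).injOn) (P.preimage _ (t.emapA_inj c).injOn)
    with hAA
  set BB : (Γ ⧸ ιB.range) → SimpleGraph B → Prop := fun d T₀ =>
    T₀.edgeSet ∈ cyl (K.preimage _ (t.emapB_inj d).injOn) (P.preimage _ (t.emapB_inj d).injOn)
    with hBB
  set QQ : SimpleGraph Γ → Prop := fun T =>
    (∀ d ∈ JB, BB d (inB (fun g => rep ιB d * ιB g) T)) ∧ True with hQQ
  have h1 : ustProb H (cyl K P) =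
      ustP H (fun T => (∀ c ∈ JA, AA c (inB (fun g => rep ιA c * ιA g) T)) ∧ QQ T) := by
    rw [ustProb_eq_ustP]
    apply ustP_congr
    intro T hT
    have hω : T.edgeSet ⊆ (mulCayley S).edgeSet := edgeSet_mono (hT.1.trans H.spanningCoe_le)
    rw [t.mem_cyl_decomp hPK hC hJA hJB hω]
    simp only [hAA, hBB, hQQ, edgeSet_inB, and_true]
    rfl
  have hQ : ∀ c ∈ JA, OutDep (fun g => rep ιA c * ιA g) (fun w => hdA ((rep ιA c)⁻¹ * w)) QQ := by
    intro c _ T T' hTT
    have h2 : ∀ d, (BB d (inB (fun g => rep ιB d * ιB g) T) ↔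
        BB d (inB (fun g => rep ιB d * ιB g) T')) := fun d =>
      outDep_inB (t.fA.edgeDisj_other (fun a b h => (t.triv a b h).2) (rep ιA c) (rep ιB d))
        (BB d) T T' hTT
    simp only [hQQ, h2]
  rw [h1, ustP_peel (fun c g => rep ιA c * ιA g) (fun c w => hdA ((rep ιA c)⁻¹ * w))
    (fun c => t.fA.block (rep ιA c)) H JA
    (fun c _ c' _ hne => t.fA.edgeDisj_same (rep_ne ιA hne)) AA QQ hQ]
  rw [ustP_peel (fun d g => rep ιB d * ιB g) (fun d w => hdB ((rep ιB d)⁻¹ * w))
    (fun d => t.fB.block (rep ιB d)) H JB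
    (fun c _ c' _ hne => t.fB.edgeDisj_same (rep_ne ιB hne)) BB (fun _ => True)
    (fun _ _ _ _ _ => Iff.rfl), ustP_true H hfin hc, mul_one]
  rfl

theorem ustProb_cyl_zero (H : (mulCayley S).Subgraph) {K P : Finset (Sym2 Γ)}
    (hC : ¬ (P ⊆ K ∧ ∀ e ∈ K, e ∉ (mulCayley S).edgeSet → e ∉ P)) :
    ustProb H (cyl K P) = 0 := by
  unfold ustProb
  have : {T | IsSpanningTree H T ∧ T.edgeSet ∈ cyl K P} = ∅ := by
    ext T
    simp only [Set.mem_ofPred_eq, Set.mem_empty_iff_false, iff_false, not_and]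
    intro hT
    exact t.not_mem_cyl hC (edgeSet_mono (hT.1.trans H.spanningCoe_le))
  rw [this]
  simp

end TwoFactors

end Vale.Agent.P143
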